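import Vale.Agent.P205.Api.Cmp

/-!
The classes Bd and BdT.
bd_of_local: given ψ, K, j; every z0 ∈ K has a compact neighbourhood mapped by the transition into
the sets U for all i ≤ j (finite intersection); comp_bound there; finish with
IsCompact.induction_on (C by max, eventually by and). bdT_of_local: same with trep_trans, bil_bound.
The rest: local versions or Leibniz (norm_iteratedFDerivWithin_smul_le on the open target).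
-/

open scoped Manifold ContDiff Topology RealInnerProductSpace
open Set Filter Metric Function

noncomputable section

namespace Vale.Agent.P205

variable {M : Type*} [TopologicalSpace M] [ChartedSpace E2 M] [IsManifold I2 ∞ M]
variable {V : Type} [NormedAddCommGroup V]

variable {ι : Type} {l : Filter ι} {lam : ι → ℝ}

theorem bd_glue {g : ι → E2 → ℝ} {K : Set E2} (hK : IsCompact K) (j : ℕ) (h1 : ∀ᶠ i in l, 1 ≤ lam i)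
    (h : ∀ x ∈ K, ∃ C : ℝ, ∃ U ∈ 𝓝 x, ∀ᶠ i in l, ∀ z ∈ U, g i z ≤ C * lam i ^ j) :
    ∃ C : ℝ, ∀ᶠ i in l, ∀ z ∈ K, g i z ≤ C * lam i ^ j := by
  refine hK.induction_on (p := fun K => ∃ C : ℝ, ∀ᶠ i in l, ∀ z ∈ K, g i z ≤ C * lam i ^ j)
    ⟨0, by simp⟩ (fun s t hst ⟨C, hC⟩ => ⟨C, hC.mono fun i hi z hz => hi z (hst hz)⟩)
    (fun s t ⟨C, hC⟩ ⟨C', hC'⟩ => ⟨max C C', ?_⟩) fun x hx => ?_
  · filter_upwards [h1, hC, hC'] with i h2 h3 h4 z hz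
    have h5 : 0 ≤ lam i ^ j := by positivity
    exact hz.elim (fun hz => (h3 z hz).trans (by gcongr; exact le_max_left _ _))
      fun hz => (h4 z hz).trans (by gcongr; exact le_max_right _ _)
  · obtain ⟨C, U, h2, h3⟩ := h x hx
    exact ⟨U, mem_nhdsWithin_of_mem_nhds h2, C, h3⟩

theorem bd_sum (C : ℕ → ℝ) {j k : ℕ} (h : k ≤ j) : C k ≤ ∑ m ∈ Finset.range (j + 1), |C m| :=
  (le_abs_self _).trans (Finset.single_le_sum (f := fun m => |C m|) (fun _ _ => abs_nonneg _)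
    (Finset.mem_range.2 (Nat.lt_succ_of_le h)))

theorem bd_unif {g : ℕ → ι → E2 → ℝ} {F : Filter E2} (h1 : ∀ᶠ i in l, 1 ≤ lam i)
    (h : ∀ j : ℕ, ∃ C : ℝ, ∃ U ∈ F, ∀ᶠ i in l, ∀ z ∈ U, g j i z ≤ C * lam i ^ j) (j : ℕ) :
    ∃ C : ℝ, 0 ≤ C ∧ ∃ U ∈ F, ∀ᶠ i in l, ∀ z ∈ U, ∀ k ≤ j, g k i z ≤ C * lam i ^ k := by
  choose C U h2 h3 using h
  refine ⟨∑ m ∈ Finset.range (j + 1), |C m|, by positivity, ⋂ k ∈ Finset.range (j + 1), U k,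
    (biInter_finset_mem _).2 fun k _ => h2 k, ?_⟩
  filter_upwards [h1, (eventually_all_finset (Finset.range (j + 1))).2 fun k _ => h3 k] with i h4 h5
    z hz k hk
  have h6 := Finset.mem_range.2 (Nat.lt_succ_of_le hk)
  exact (h5 k h6 z (mem_iInter₂.1 hz k h6)).trans
    (mul_le_mul_of_nonneg_right (bd_sum C hk) (by positivity))

omit [ChartedSpace E2 M] [IsManifold I2 ∞ M] in
theorem bd_near (φ ψ : Chart M) {z : E2} (hz : z ∈ ψ.target) (hz' : ψ.symm z ∈ φ.source) :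
    ∀ᶠ y in 𝓝 z, y ∈ ψ.target ∧ ψ.symm y ∈ φ.source :=
  (ψ.isOpen_inter_preimage_symm φ.open_source).mem_nhds ⟨hz, hz'⟩

theorem bd_loc {φ ψ : Chart M} (hφ : IsCh φ) (hψ : IsCh ψ) {x : E2} (hx : x ∈ ψ.target)
    (hx' : ψ.symm x ∈ φ.source) {U : Set E2} (hU : U ∈ 𝓝 (φ (ψ.symm x))) (j : ℕ)
    (W : Type) [NormedAddCommGroup W] [NormedSpace ℝ W] :
    ∃ K ∈ 𝓝 x, IsCompact K ∧ (∀ z ∈ K, z ∈ ψ.target ∧ ψ.symm z ∈ φ.source) ∧ ∃ C : ℝ,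
      ∀ (u : E2 → W) (B ν : ℝ), 0 ≤ B → 1 ≤ ν → ContDiffOn ℝ ∞ u φ.target →
        (∀ z ∈ U, ∀ k ≤ j, ‖iteratedFDeriv ℝ k u z‖ ≤ B * ν ^ k) →
        ∀ z ∈ K, ContDiffAt ℝ ∞ (u ∘ φ ∘ ψ.symm) z ∧
          ∀ k ≤ j, ‖iteratedFDeriv ℝ k (u ∘ φ ∘ ψ.symm) z‖ ≤ C * B * ν ^ k := by
  obtain ⟨K, k1, k2, k3⟩ := local_compact_nhds (inter_mem (bd_near φ ψ hx hx')
    ((hφ.contDiffAt_trans hψ hx hx').continuousAt.preimage_mem_nhds hU))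
  have h1 : ∀ z ∈ K, ContDiffAt ℝ ∞ (φ ∘ ψ.symm) z := fun z hz =>
    hφ.contDiffAt_trans hψ (k2 hz).1.1 (k2 hz).1.2
  choose C _ h2 using comp_bound (V := W) k3 h1
  refine ⟨K, k1, k3, fun z hz => (k2 hz).1, ∑ m ∈ Finset.range (j + 1), |C m|,
    fun u B ν hB hν hu hb z hz => ?_⟩
  have h3 := hu.contDiffAt (φ.open_target.mem_nhds (φ.map_source (k2 hz).1.2))
  refine ⟨h3.comp z (h1 z hz), fun k hk => (h2 k u B ν hν z hz h3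
    fun i hi => hb _ (k2 hz).2 i (hi.trans hk)).trans ?_⟩
  gcongr
  exact bd_sum C hk

theorem bd_fix {W : Type} [NormedAddCommGroup W] [NormedSpace ℝ W] {f : E2 → W} {s K : Set E2}
    (h1 : ∀ᶠ i in l, 1 ≤ lam i) (hs : IsOpen s) (hf : ContDiffOn ℝ ∞ f s) (hKs : K ⊆ s)
    (hK : IsCompact K) (j : ℕ) :
    ∃ C : ℝ, ∀ᶠ i in l, ∀ z ∈ K, ‖iteratedFDeriv ℝ j f z‖ ≤ C * lam i ^ j := by
  obtain ⟨C, hC⟩ := hK.exists_bound_of_continuousOn (f := iteratedFDeriv ℝ j f) fun z hz =>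
    ((hf.contDiffAt (hs.mem_nhds (hKs hz))).continuousAt_iteratedFDeriv
      (by exact_mod_cast le_top)).continuousWithinAt
  exact ⟨C, h1.mono fun i hi z hz => (hC z hz).trans
    (le_mul_of_one_le_right ((norm_nonneg _).trans (hC z hz)) (one_le_pow₀ hi))⟩

theorem bd_add {W : Type} [NormedAddCommGroup W] [NormedSpace ℝ W] {f g : ι → E2 → W}
    {s K : Set E2} (hs : IsOpen s) (hKs : K ⊆ s) (hf : ∀ᶠ i in l, ContDiffOn ℝ ∞ (f i) s)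
    (hg : ∀ᶠ i in l, ContDiffOn ℝ ∞ (g i) s) {j : ℕ}
    (h1 : ∃ C : ℝ, ∀ᶠ i in l, ∀ z ∈ K, ‖iteratedFDeriv ℝ j (f i) z‖ ≤ C * lam i ^ j)
    (h2 : ∃ C : ℝ, ∀ᶠ i in l, ∀ z ∈ K, ‖iteratedFDeriv ℝ j (g i) z‖ ≤ C * lam i ^ j) :
    ∃ C : ℝ, ∀ᶠ i in l, ∀ z ∈ K, ‖iteratedFDeriv ℝ j (f i + g i) z‖ ≤ C * lam i ^ j := by
  obtain ⟨C, h1⟩ := h1
  obtain ⟨C', h2⟩ := h2
  refine ⟨C + C', ?_⟩
  filter_upwards [hf, hg, h1, h2] with i h3 h4 h5 h6 z hz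
  have h7 := hs.mem_nhds (hKs hz)
  rw [iteratedFDeriv_add_apply ((h3.contDiffAt h7).of_le (by exact_mod_cast le_top))
    ((h4.contDiffAt h7).of_le (by exact_mod_cast le_top)), add_mul]
  exact norm_add_le_of_le (h5 z hz) (h6 z hz)

theorem bd_all {W : Type} [NormedAddCommGroup W] [NormedSpace ℝ W] {U : ι → E2 → W}
    (h1 : ∀ᶠ i in l, 1 ≤ lam i)
    (hb : ∀ j : ℕ, ∃ C : ℝ, ∀ᶠ i in l, ∀ z, ‖iteratedFDeriv ℝ j (U i) z‖ ≤ C * lam i ^ j) (j : ℕ) :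
    ∃ C : ℝ, 0 ≤ C ∧ ∀ᶠ i in l, ∀ k ≤ j, ∀ z, ‖iteratedFDeriv ℝ k (U i) z‖ ≤ C * lam i ^ k := by
  obtain ⟨C, h2, s, h3, h4⟩ := bd_unif (F := ⊤) (g := fun j i z => ‖iteratedFDeriv ℝ j (U i) z‖) h1
    (fun j => (hb j).imp fun C h => ⟨univ, univ_mem, h.mono fun i hi z _ => hi z⟩) j
  exact ⟨C, h2, h4.mono fun i hi k hk z => hi z (mem_top.1 h3 ▸ mem_univ z) k hk⟩

theorem bd_of_local [NormedSpace ℝ V] {u : ι → M → V} (h1 : ∀ᶠ i in l, 1 ≤ lam i)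
    (hs : ∀ᶠ i in l, Sm (u i))
    (h : ∀ p, ∃ φ : Chart M, IsCh φ ∧ p ∈ φ.source ∧ ∀ j : ℕ, ∃ C : ℝ, ∃ U ∈ 𝓝 (φ p),
      ∀ᶠ i in l, ∀ z ∈ U, ‖iteratedFDeriv ℝ j (u i ∘ φ.symm) z‖ ≤ C * lam i ^ j) :
    Bd l lam u := by
  intro ψ hψ K hK hK' j
  refine bd_glue hK' j h1 fun x hx => ?_
  obtain ⟨φ, hφ, h2, h3⟩ := h (ψ.symm x)
  obtain ⟨B, hB, U, h4, h5⟩ := bd_unif h1 h3 j
  obtain ⟨K', k1, -, k2, C, k3⟩ := bd_loc hφ hψ (hK hx) h2 h4 j V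
  refine ⟨C * B, K', k1, ?_⟩
  filter_upwards [h1, hs, h5] with i h6 h7 h8 z hz
  have h9 : u i ∘ ψ.symm =ᶠ[𝓝 z] (u i ∘ φ.symm) ∘ φ ∘ ψ.symm :=
    (bd_near φ ψ (k2 z hz).1 (k2 z hz).2).mono fun y hy => congrArg (u i) (φ.left_inv hy.2).symm
  rw [(h9.iteratedFDeriv ℝ j).eq_of_nhds]
  exact (k3 _ B _ hB h6 (h7.contDiffOn hφ) h8 z hz).2 j le_rfl

theorem bdT_of_local {T : ι → M → Bil} (h1 : ∀ᶠ i in l, 1 ≤ lam i)
    (hs : ∀ᶠ i in l, SmT (T i))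
    (h : ∀ p, ∃ φ : Chart M, IsCh φ ∧ p ∈ φ.source ∧ ∀ j : ℕ, ∃ C : ℝ, ∃ U ∈ 𝓝 (φ p),
      ∀ᶠ i in l, ∀ z ∈ U, ‖iteratedFDeriv ℝ j (trep φ (T i)) z‖ ≤ C * lam i ^ j) :
    BdT l lam T := by
  intro ψ hψ K hK hK' j
  refine bd_glue hK' j h1 fun x hx => ?_
  obtain ⟨φ, hφ, h2, h3⟩ := h (ψ.symm x)
  obtain ⟨B, hB, U, h4, h5⟩ := bd_unif h1 h3 j
  obtain ⟨K', k1, k4, k2, C, k3⟩ := bd_loc hφ hψ (hK hx) h2 h4 j Bil
  obtain ⟨C', -, k5⟩ := bil_bound (A := fderiv ℝ (φ ∘ ψ.symm)) k4 (fun z hz =>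
    (hφ.contDiffAt_trans hψ (k2 z hz).1 (k2 z hz).2).fderiv_right le_rfl) j
  refine ⟨C' * (C * B), K', k1, ?_⟩
  filter_upwards [h1, hs, h5] with i h6 h7 h8 z hz
  have h9 : trep ψ (T i) =ᶠ[𝓝 z] fun y => ((trep φ (T i) ∘ φ ∘ ψ.symm) y).bilinearComp
      (fderiv ℝ (φ ∘ ψ.symm) y) (fderiv ℝ (φ ∘ ψ.symm) y) :=
    (bd_near φ ψ (k2 z hz).1 (k2 z hz).2).mono fun y hy => trep_trans hφ hψ _ hy.1 hy.2
  rw [(h9.iteratedFDeriv ℝ j).eq_of_nhds]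
  obtain ⟨k6, k7⟩ := k3 _ B _ hB h6 (h7 φ hφ) h8 z hz
  exact k5 _ _ _ h6 z hz k6 k7

theorem bd_const [NormedSpace ℝ V] {u : M → V} (h1 : ∀ᶠ i in l, 1 ≤ lam i) (hu : Sm u) :
    Bd l lam (fun _ => u) := by
  exact fun φ hφ K hK hK' j => bd_fix h1 φ.open_target (hu.contDiffOn hφ) hK hK' j

theorem bdT_const {T : M → Bil} (h1 : ∀ᶠ i in l, 1 ≤ lam i) (hT : SmT T) :
    BdT l lam (fun _ => T) := by
  exact fun φ hφ K hK hK' j => bd_fix h1 φ.open_target (hT φ hφ) hK hK' j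

theorem Bd.add [NormedSpace ℝ V] {u v : ι → M → V} (hu : Bd l lam u) (hv : Bd l lam v)
    (su : ∀ᶠ i in l, Sm (u i)) (sv : ∀ᶠ i in l, Sm (v i)) :
    Bd l lam (fun i => u i + v i) := by
  exact fun φ hφ K hK hK' j => bd_add φ.open_target hK (su.mono fun i h => h.contDiffOn hφ)
    (sv.mono fun i h => h.contDiffOn hφ) (hu φ hφ K hK hK' j) (hv φ hφ K hK hK' j)

theorem BdT.add {S T : ι → M → Bil} (hS : BdT l lam S) (hT : BdT l lam T)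
    (sS : ∀ᶠ i in l, SmT (S i)) (sT : ∀ᶠ i in l, SmT (T i)) :
    BdT l lam (fun i p => S i p + T i p) := by
  intro φ hφ K hK hK' j
  have e : ∀ i, trep φ (fun p => S i p + T i p) = trep φ (S i) + trep φ (T i) := fun i => by
    ext z
    all_goals simp [trep]
  simp only [e]
  exact bd_add φ.open_target hK (sS.mono fun i h => h φ hφ) (sT.mono fun i h => h φ hφ)
    (hS φ hφ K hK hK' j) (hT φ hφ K hK hK' j)

theorem BdT.smul {f : ι → M → ℝ} {T : ι → M → Bil} (hf : Bd l lam f) (hT : BdT l lam T)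
    (sf : ∀ᶠ i in l, Sm (f i)) (sT : ∀ᶠ i in l, SmT (T i)) :
    BdT l lam (fun i p => f i p • T i p) := by
  intro φ hφ K hK hK' j
  have e : ∀ i, trep φ (fun p => f i p • T i p) = fun z => (f i ∘ φ.symm) z • trep φ (T i) z :=
    fun i => by
    ext z
    all_goals simp [trep]
  choose C h1 using hf φ hφ K hK hK'
  choose C' h2 using hT φ hφ K hK hK'
  refine ⟨∑ k ∈ Finset.range (j + 1), j.choose k * C k * C' (j - k), ?_⟩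
  filter_upwards [sf, sT, (eventually_all_finset (Finset.range (j + 1))).2 fun k _ =>
    (h1 k).and (h2 (j - k))] with i h3 h4 h5 z hz
  have h6 := norm_iteratedFDerivWithin_smul_le (h3.contDiffOn hφ) (h4 φ hφ)
    φ.open_target.uniqueDiffOn (hK hz) (n := j) (by exact_mod_cast le_top)
  simp only [iteratedFDerivWithin_of_isOpen _ φ.open_target (hK hz)] at h6
  rw [e, Finset.sum_mul]
  refine h6.trans (Finset.sum_le_sum fun k hk => ?_)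
  have h7 := (h5 k hk).1 z hz
  calc _ ≤ j.choose k * (C k * lam i ^ k) * (C' (j - k) * lam i ^ (j - k)) :=
        mul_le_mul (by gcongr) ((h5 k hk).2 z hz) (norm_nonneg _)
          (mul_nonneg (Nat.cast_nonneg _) ((norm_nonneg _).trans h7))
    _ = j.choose k * C k * C' (j - k) * lam i ^ (k + (j - k)) := by ring
    _ = _ := by rw [Nat.add_sub_cancel' (Nat.lt_succ_iff.1 (Finset.mem_range.1 hk))]

theorem bd_push [T2Space M] [NormedSpace ℝ V] {φ : Chart M} (hφ : IsCh φ) {K : Set E2}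
    (hK : IsCompact K) (hKt : K ⊆ φ.target) {U : ι → E2 → V} (h1 : ∀ᶠ i in l, 1 ≤ lam i)
    (hs : ∀ᶠ i in l, ContDiff ℝ ∞ (U i) ∧ support (U i) ⊆ K)
    (hb : ∀ j : ℕ, ∃ C : ℝ, ∀ᶠ i in l, ∀ z, ‖iteratedFDeriv ℝ j (U i) z‖ ≤ C * lam i ^ j) :
    Bd l lam (fun i => push φ (U i)) := by
  intro ψ hψ K' hK1 hK2 j
  obtain ⟨C, -, h2⟩ := push_bound (V := V) hφ hψ hK hKt hK2 hK1 j
  obtain ⟨B, hB, h3⟩ := bd_all h1 hb j
  refine ⟨C * B, ?_⟩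
  filter_upwards [h1, hs, h3] with i h4 h5 h6
  exact h2 _ B _ hB h4 h5.1 h5.2 h6

theorem bdT_pushT [T2Space M] {φ : Chart M} (hφ : IsCh φ) {K : Set E2}
    (hK : IsCompact K) (hKt : K ⊆ φ.target) {T : ι → E2 → Bil} (h1 : ∀ᶠ i in l, 1 ≤ lam i)
    (hs : ∀ᶠ i in l, ContDiff ℝ ∞ (T i) ∧ support (T i) ⊆ K)
    (hb : ∀ j : ℕ, ∃ C : ℝ, ∀ᶠ i in l, ∀ z, ‖iteratedFDeriv ℝ j (T i) z‖ ≤ C * lam i ^ j) :
    BdT l lam (fun i => pushT φ (T i)) := by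
  intro ψ hψ K' hK1 hK2 j
  obtain ⟨C, -, h2⟩ := pushT_bound hφ hψ hK hKt hK2 hK1 j
  obtain ⟨B, hB, h3⟩ := bd_all h1 hb j
  refine ⟨C * B, ?_⟩
  filter_upwards [h1, hs, h3] with i h4 h5 h6
  exact h2 _ B _ hB h4 h5.1 h5.2 h6

end Vale.Agent.P205
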