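import Vale.Agent.P205.Defs

/-!
Charts of the maximal atlas: basic calculus.
Hints: IsManifold.chart_mem_maximalAtlas, contMDiffOn_of_mem_maximalAtlas,
contMDiffOn_symm_of_mem_maximalAtlas, contMDiffOn_iff_contDiffOn, mfderiv_eq_fderiv, mfderiv_comp,
IsManifold.compatible_of_mem_maximalAtlas. For affine_ch use
φ.transHomeomorph or φ.trans (Homeomorph.toOpenPartialHomeomorph _), and
StructureGroupoid.mem_maximalAtlas / mem_maximalAtlas_iff with contDiffGroupoid (or
StructureGroupoid.mem_maximalAtlas_of_mem_groupoid style lemmas). For diffeo_ch the same with e.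
small_ch: affine_ch with a scaling map, applied to φ, centre at φ p.
-/

open scoped Manifold ContDiff Topology RealInnerProductSpace
open Set Filter Metric Function

noncomputable section

namespace Vale.Agent.P205

variable {M : Type*} [TopologicalSpace M] [ChartedSpace E2 M] [IsManifold I2 ∞ M]
variable {V : Type} [NormedAddCommGroup V]

theorem isCh_chartAt (p : M) : IsCh (chartAt E2 p) := by
  exact IsManifold.chart_mem_maximalAtlas p

theorem IsCh.contMDiffOn {φ : Chart M} (hφ : IsCh φ) : ContMDiffOn I2 I2 ∞ φ φ.source := by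
  exact contMDiffOn_of_mem_maximalAtlas hφ

theorem IsCh.contMDiffOn_symm {φ : Chart M} (hφ : IsCh φ) :
    ContMDiffOn I2 I2 ∞ φ.symm φ.target := by
  exact contMDiffOn_symm_of_mem_maximalAtlas hφ

theorem Sm.contDiffOn [NormedSpace ℝ V] {F : M → V} (hF : Sm F) {φ : Chart M} (hφ : IsCh φ) :
    ContDiffOn ℝ ∞ (F ∘ φ.symm) φ.target := by
  exact contMDiffOn_iff_contDiffOn.1 (ContMDiff.comp_contMDiffOn hF hφ.contMDiffOn_symm)

theorem Sm.contDiffAt [NormedSpace ℝ V] {F : M → V} (hF : Sm F) {φ : Chart M} (hφ : IsCh φ)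
    {z : E2} (hz : z ∈ φ.target) : ContDiffAt ℝ ∞ (F ∘ φ.symm) z := by
  exact (hF.contDiffOn hφ).contDiffAt (φ.open_target.mem_nhds hz)

/-- Transition maps are smooth. -/
theorem IsCh.contDiffAt_trans {φ ψ : Chart M} (hφ : IsCh φ) (hψ : IsCh ψ) {z : E2}
    (hz : z ∈ ψ.target) (hz' : ψ.symm z ∈ φ.source) : ContDiffAt ℝ ∞ (φ ∘ ψ.symm) z := by
  exact contMDiffAt_iff_contDiffAt.1 ((contMDiffAt_of_mem_maximalAtlas hφ hz').comp z
    (contMDiffAt_symm_of_mem_maximalAtlas hψ hz))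

theorem sm_of_local [NormedSpace ℝ V] {F : M → V}
    (h : ∀ p, ∃ φ : Chart M, IsCh φ ∧ p ∈ φ.source ∧ ContDiffAt ℝ ∞ (F ∘ φ.symm) (φ p)) :
    Sm F := by
  intro p
  obtain ⟨φ, hφ, hp, hF⟩ := h p
  refine (hF.contMDiffAt.comp p (contMDiffAt_of_mem_maximalAtlas hφ hp)).congr_of_eventuallyEq ?_
  filter_upwards [φ.open_source.mem_nhds hp] with q hq
  simp only [comp_apply, φ.left_inv hq]

theorem fderiv_comp_symm [NormedSpace ℝ V] {F : M → V} {φ : Chart M} (hφ : IsCh φ) {z : E2}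
    (hz : z ∈ φ.target) (hF : MDifferentiableAt I2 𝓘(ℝ, V) F (φ.symm z)) :
    fderiv ℝ (F ∘ φ.symm) z = (dM F (φ.symm z)).comp (dS φ z) := by
  rw [← mfderiv_eq_fderiv]
  exact mfderiv_comp z hF
    ((contMDiffAt_symm_of_mem_maximalAtlas hφ hz).mdifferentiableAt (by simp))

theorem Sm.fderiv_comp_symm [NormedSpace ℝ V] {F : M → V} (hF : Sm F) {φ : Chart M}
    (hφ : IsCh φ) {z : E2} (hz : z ∈ φ.target) :
    fderiv ℝ (F ∘ φ.symm) z = (dM F (φ.symm z)).comp (dS φ z) := by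
  exact Vale.Agent.P205.fderiv_comp_symm hφ hz ((hF _).mdifferentiableAt (by simp))

theorem dS_dM {φ : Chart M} (hφ : IsCh φ) {p : M} (hp : p ∈ φ.source) (v : E2) :
    dS φ (φ p) (dM φ p v) = v := by
  have h1 := mfderiv_comp p
    ((contMDiffAt_symm_of_mem_maximalAtlas hφ (φ.map_source hp)).mdifferentiableAt (by simp))
    ((contMDiffAt_of_mem_maximalAtlas hφ hp).mdifferentiableAt (by simp))
  have h2 : φ.symm ∘ φ =ᶠ[𝓝 p] id := by
    filter_upwards [φ.open_source.mem_nhds hp] with q hq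
    exact φ.left_inv hq
  rw [h2.mfderiv_eq, mfderiv_id] at h1
  exact (congrArg (fun L => L v) h1).symm

theorem dM_dS {φ : Chart M} (hφ : IsCh φ) {p : M} (hp : p ∈ φ.source) (v : E2) :
    dM φ p (dS φ (φ p) v) = v := by
  have h1 := fderiv_comp_symm hφ (φ.map_source hp) (F := φ)
    ((contMDiffAt_of_mem_maximalAtlas hφ
      (φ.map_target (φ.map_source hp))).mdifferentiableAt (by simp))
  have h2 : φ ∘ φ.symm =ᶠ[𝓝 (φ p)] id := by
    filter_upwards [φ.open_target.mem_nhds (φ.map_source hp)] with q hq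
    exact φ.right_inv hq
  rw [h2.fderiv_eq, fderiv_id, φ.left_inv hp] at h1
  exact (congrArg (fun L => L v) h1).symm

theorem Sm.dM_eq [NormedSpace ℝ V] {F : M → V} (hF : Sm F) {φ : Chart M} (hφ : IsCh φ) {p : M}
    (hp : p ∈ φ.source) (v : E2) : dM F p v = fderiv ℝ (F ∘ φ.symm) (φ p) (dM φ p v) := by
  rw [hF.fderiv_comp_symm hφ (φ.map_source hp), φ.left_inv hp, ContinuousLinearMap.comp_apply,
    dS_dM hφ hp]

theorem fderiv_trans {φ ψ : Chart M} (hφ : IsCh φ) (hψ : IsCh ψ) {z : E2}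
    (hz : z ∈ ψ.target) (hz' : ψ.symm z ∈ φ.source) :
    fderiv ℝ (φ ∘ ψ.symm) z = (dM φ (ψ.symm z)).comp (dS ψ z) := by
  exact fderiv_comp_symm hψ hz
    ((contMDiffAt_of_mem_maximalAtlas hφ hz').mdifferentiableAt (by simp))

/-- A chart followed by a smooth local diffeomorphism of the plane. -/
theorem diffeo_ch {φ : Chart M} (hφ : IsCh φ) (e : OpenPartialHomeomorph E2 E2)
    (he : ContDiffOn ℝ ∞ e e.source) (he' : ContDiffOn ℝ ∞ e.symm e.target) :
    IsCh (φ.trans e) := by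
  refine (φ.trans e).mem_maximalAtlas_of_contMDiffOn ?_ ?_
  · exact (he.contMDiffOn.comp' hφ.contMDiffOn)
  · exact (hφ.contMDiffOn_symm.comp' he'.contMDiffOn)

/-- A chart followed by an invertible affine map. -/
theorem affine_ch {φ : Chart M} (hφ : IsCh φ) (L : E2 ≃L[ℝ] E2) (b : E2) :
    ∃ ψ : Chart M, IsCh ψ ∧ ψ.source = φ.source ∧ (∀ p, ψ p = L (φ p) + b) ∧
      (∀ z, ψ.symm z = φ.symm (L.symm (z - b))) ∧
      ψ.target = {z | L.symm (z - b) ∈ φ.target} := by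
  refine ⟨φ.trans (L.toHomeomorph.trans (Homeomorph.addRight b)).toOpenPartialHomeomorph,
    diffeo_ch hφ _ ?_ ?_, by simp, fun p => rfl, fun z => ?_, ?_⟩
  · exact (L.contDiff.add contDiff_const).contDiffOn
  · exact (L.symm.contDiff.comp (contDiff_id.add contDiff_const)).contDiffOn
  · rw [sub_eq_add_neg]
    rfl
  · ext z
    rw [mem_ofPred_eq, sub_eq_add_neg]
    exact ⟨fun h => h.2, fun h => ⟨mem_univ _, h⟩⟩

/-- Zoom in at a point: for all small r the map (φ - φ p) / r is a chart whose target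
contains the closed ball of radius R. -/
theorem small_ch {φ : Chart M} (hφ : IsCh φ) {p : M} (hp : p ∈ φ.source) (R : ℝ) :
    ∀ᶠ r in 𝓝[>] (0 : ℝ), ∃ ψ : Chart M, IsCh ψ ∧ ψ.source = φ.source ∧
      (∀ q, ψ q = r⁻¹ • (φ q - φ p)) ∧ (∀ z, ψ.symm z = φ.symm (φ p + r • z)) ∧
      closedBall 0 R ⊆ ψ.target := by
  have h1 : ∀ᶠ r in 𝓝 (0 : ℝ), ∀ z ∈ closedBall (0 : E2) R, φ p + r • z ∈ φ.target := by
    refine (isCompact_closedBall (0 : E2) R).eventually_forall_of_forall_eventually fun z _ => ?_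
    have h2 : Continuous fun w : ℝ × E2 => φ p + w.1 • w.2 := by fun_prop
    refine h2.continuousAt.eventually_mem (φ.open_target.mem_nhds ?_)
    simpa using φ.map_source hp
  filter_upwards [self_mem_nhdsWithin, nhdsWithin_le_nhds h1] with r hr h2
  have hr' : r ≠ 0 := ne_of_gt hr
  obtain ⟨L, hL⟩ : ∃ L : E2 ≃L[ℝ] E2, ∀ z, L z = r⁻¹ • z :=
    ⟨ContinuousLinearEquiv.smulLeft (R₁ := ℝ) (M₁ := E2) (Units.mk0 r⁻¹ (inv_ne_zero hr')),
      fun _ => rfl⟩
  obtain ⟨ψ, a1, a2, a3, a4, a5⟩ := affine_ch hφ L (-(r⁻¹ • φ p))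
  have e : ∀ z : E2, L.symm (z - -(r⁻¹ • φ p)) = φ p + r • z := fun z => by
    rw [ContinuousLinearEquiv.symm_apply_eq, hL, smul_add, inv_smul_smul₀ hr', sub_neg_eq_add,
      add_comm]
  refine ⟨ψ, a1, a2, fun q => ?_, fun z => by rw [a4, e], fun z hz => ?_⟩
  · rw [a3, hL, smul_sub, sub_eq_add_neg]
  · rw [a5, mem_ofPred_eq, e]
    exact h2 z hz

/-- A finite family of (chart, compact set in the target) covering M. -/
theorem exists_fin_cover [CompactSpace M] : ∃ s : Finset (Chart M × Set E2),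
    (∀ c ∈ s, IsCh c.1 ∧ c.2 ⊆ c.1.target ∧ IsCompact c.2) ∧
      ∀ p : M, ∃ c ∈ s, p ∈ c.1.source ∧ c.1 p ∈ interior c.2 := by
  classical
  have h : ∀ p : M, ∃ K : Set E2, IsCompact K ∧ chartAt E2 p p ∈ interior K ∧
      K ⊆ (chartAt E2 p).target := fun p =>
    exists_compact_subset (chartAt E2 p).open_target (mem_chart_target E2 p)
  choose K h1 h2 h3 using h
  obtain ⟨t, ht⟩ := isCompact_univ.elim_finite_subcover
    (fun p : M => (chartAt E2 p).source ∩ chartAt E2 p ⁻¹' interior (K p))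
    (fun p => (chartAt E2 p).isOpen_inter_preimage isOpen_interior)
    fun p _ => mem_iUnion.2 ⟨p, mem_chart_source E2 p, h2 p⟩
  refine ⟨t.image fun p => (chartAt E2 p, K p), fun c hc => ?_, fun p => ?_⟩
  · obtain ⟨p, -, rfl⟩ := Finset.mem_image.1 hc
    exact ⟨isCh_chartAt p, h3 p, h1 p⟩
  · obtain ⟨q, hq, hp⟩ := mem_iUnion₂.1 (ht (mem_univ p))
    exact ⟨_, Finset.mem_image_of_mem _ hq, hp⟩

end Vale.Agent.P205
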