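import Vale.Agent.P205.Api.Ten

/-!
Composition with fixed smooth maps keeps scale bounds.
comp_bound: on a compact K where τ is smooth near each point, the derivatives of τ of order ≤ j are
bounded by some D ≥ 1 (continuity of iteratedFDeriv at points where ContDiffAt holds; cover or use
IsCompact.exists_bound_of_continuousOn). At z ∈ K pick an open set s ∋ z and open t ∋ τ z with
τ, u smooth there, use norm_iteratedFDerivWithin_comp_le (and iteratedFDerivWithin_of_isOpen).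
bil_bound: Leibniz, ContinuousLinearMap.norm_iteratedFDerivWithin_le_of_bilinear twice (or write
bilinearComp B A A as a continuous linear map in B depending smoothly on z).
push_bound, pushT_bound: K'' = K' ∩ ψ '' (ψ.source ∩ φ.symm '' K) is compact; on it use comp_bound
(eventually equality of push φ U ∘ ψ.symm with U ∘ φ ∘ ψ.symm), off it push_eventually_zero.
-/

open scoped Manifold ContDiff Topology RealInnerProductSpace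
open Set Filter Metric Function

noncomputable section

namespace Vale.Agent.P205

variable {M : Type*} [TopologicalSpace M] [ChartedSpace E2 M] [IsManifold I2 ∞ M]
variable {V : Type} [NormedAddCommGroup V]

theorem cmp_open {F : Type*} [NormedAddCommGroup F] [NormedSpace ℝ F] {f : E2 → F} {z : E2}
    (h : ContDiffAt ℝ ∞ f z) (j : ℕ) : ∃ s, IsOpen s ∧ z ∈ s ∧ ContDiffOn ℝ j f s := by
  obtain ⟨u, hu, h1⟩ := h.contDiffOn (m := j) (by exact_mod_cast le_top) (by simp)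
  obtain ⟨s, hs, ho, hz⟩ := _root_.mem_nhds_iff.1 hu
  exact ⟨s, ho, hz, h1.mono hs⟩

theorem cmp_unif {F : Type*} [NormedAddCommGroup F] [NormedSpace ℝ F] {f : E2 → F} {K : Set E2}
    (hK : IsCompact K) (hf : ∀ z ∈ K, ContDiffAt ℝ ∞ f z) (j : ℕ) :
    ∃ D : ℝ, 1 ≤ D ∧ ∀ i ≤ j, ∀ z ∈ K, ‖iteratedFDeriv ℝ i f z‖ ≤ D := by
  have h : ∀ i : ℕ, ∃ D : ℝ, ∀ z ∈ K, ‖iteratedFDeriv ℝ i f z‖ ≤ D := fun i =>
    hK.exists_bound_of_continuousOn fun z hz =>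
      ((hf z hz).continuousAt_iteratedFDeriv (by exact_mod_cast le_top)).continuousWithinAt
  choose D hD using h
  refine ⟨1 + ∑ i ∈ Finset.range (j + 1), |D i|,
    le_add_of_nonneg_right (Finset.sum_nonneg fun i _ => abs_nonneg _), fun i hi z hz => ?_⟩
  have h1 : |D i| ≤ ∑ i ∈ Finset.range (j + 1), |D i| :=
    Finset.single_le_sum (f := fun i => |D i|) (fun i _ => abs_nonneg _)
      (Finset.mem_range.2 (Nat.lt_succ_of_le hi))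
  linarith [hD i z hz, le_abs_self (D i)]

theorem cmp_nonneg {F : Type*} [NormedAddCommGroup F] [NormedSpace ℝ F] {f : E2 → F} {z : E2}
    {B ν : ℝ} {j : ℕ} (h : ∀ i ≤ j, ‖iteratedFDeriv ℝ i f z‖ ≤ B * ν ^ i) : 0 ≤ B := by
  have h1 := (norm_nonneg _).trans (h 0 (Nat.zero_le _))
  rwa [pow_zero, mul_one] at h1

theorem cmp_comp {F : Type*} [NormedAddCommGroup F] [NormedSpace ℝ F] {τ : E2 → E2} {K : Set E2}
    (hK : IsCompact K) (hτ : ∀ z ∈ K, ContDiffAt ℝ ∞ τ z) (j : ℕ) :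
    ∃ C : ℝ, 0 < C ∧ ∀ (u : E2 → F) (B ν : ℝ), 1 ≤ ν → ∀ z ∈ K, ContDiffAt ℝ ∞ u (τ z) →
      (∀ i ≤ j, ‖iteratedFDeriv ℝ i u (τ z)‖ ≤ B * ν ^ i) →
      ∀ n ≤ j, ‖iteratedFDeriv ℝ n (u ∘ τ) z‖ ≤ C * B * ν ^ n := by
  obtain ⟨D, hD1, hD⟩ := cmp_unif hK hτ j
  refine ⟨j.factorial * D ^ j, by positivity, fun u B ν hν z hz hu hb n hn => ?_⟩
  have hB := cmp_nonneg hb
  obtain ⟨t, ht, hzt, hut⟩ := cmp_open hu n
  obtain ⟨s₀, hs₀, hzs₀, hτs⟩ := cmp_open (hτ z hz) n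
  have hs : IsOpen (s₀ ∩ τ ⁻¹' t) := hτs.continuousOn.isOpen_inter_preimage hs₀ ht
  have hzs : z ∈ s₀ ∩ τ ⁻¹' t := ⟨hzs₀, hzt⟩
  have h := norm_iteratedFDerivWithin_comp_le (n := n) hut (hτs.mono inter_subset_left) le_rfl
    ht.uniqueDiffOn hs.uniqueDiffOn (fun x hx => hx.2) hzs (C := B * ν ^ n) (D := D)
    (fun i hi => by
      rw [iteratedFDerivWithin_of_isOpen i ht hzt]
      exact (hb i (hi.trans hn)).trans
        (mul_le_mul_of_nonneg_left (pow_le_pow_right₀ hν hi) hB))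
    (fun i hi1 hi => by
      rw [iteratedFDerivWithin_of_isOpen i hs hzs]
      exact (hD i (hi.trans hn) z hz).trans (le_self_pow₀ hD1 (by omega)))
  rw [iteratedFDerivWithin_of_isOpen n hs hzs] at h
  refine h.trans ?_
  have h1 : (n.factorial : ℝ) ≤ j.factorial := by exact_mod_cast Nat.factorial_le hn
  have h2 : D ^ n ≤ D ^ j := pow_le_pow_right₀ hD1 hn
  calc (n.factorial : ℝ) * (B * ν ^ n) * D ^ n = n.factorial * D ^ n * B * ν ^ n := by ring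
    _ ≤ j.factorial * D ^ j * B * ν ^ n := by gcongr

theorem cmp_bil {F G H : Type*} [NormedAddCommGroup F] [NormedSpace ℝ F] [NormedAddCommGroup G]
    [NormedSpace ℝ G] [NormedAddCommGroup H] [NormedSpace ℝ H] (L : F →L[ℝ] G →L[ℝ] H)
    {P : E2 → F} {K : Set E2} (hK : IsCompact K) (hP : ∀ z ∈ K, ContDiffAt ℝ ∞ P z) (j : ℕ) :
    ∃ C : ℝ, 0 < C ∧ ∀ (g : E2 → G) (B ν : ℝ), 1 ≤ ν → ∀ z ∈ K, ContDiffAt ℝ ∞ g z →
      (∀ i ≤ j, ‖iteratedFDeriv ℝ i g z‖ ≤ B * ν ^ i) →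
      ∀ n ≤ j, ‖iteratedFDeriv ℝ n (fun x => L (P x) (g x)) z‖ ≤ C * B * ν ^ n := by
  obtain ⟨D, hD1, hD⟩ := cmp_unif hK hP j
  refine ⟨(‖L‖ + 1) * 2 ^ j * D, by positivity, fun g B ν hν z hz hg hb n hn => ?_⟩
  have hB := cmp_nonneg hb
  obtain ⟨t, ht, hzt, hgt⟩ := cmp_open hg n
  obtain ⟨s₀, hs₀, hzs₀, hPs⟩ := cmp_open (hP z hz) n
  have hs : IsOpen (s₀ ∩ t) := hs₀.inter ht
  have hzs : z ∈ s₀ ∩ t := ⟨hzs₀, hzt⟩
  have h := L.norm_iteratedFDerivWithin_le_of_bilinear (hPs.mono inter_subset_left)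
    (hgt.mono inter_subset_right) hs.uniqueDiffOn hzs (n := n) le_rfl
  rw [iteratedFDerivWithin_of_isOpen n hs hzs] at h
  refine h.trans ?_
  have h1 : ∑ i ∈ Finset.range (n + 1), (n.choose i : ℝ) *
      ‖iteratedFDerivWithin ℝ i P (s₀ ∩ t) z‖ * ‖iteratedFDerivWithin ℝ (n - i) g (s₀ ∩ t) z‖ ≤
      ∑ i ∈ Finset.range (n + 1), (n.choose i : ℝ) * (D * (B * ν ^ n)) := by
    refine Finset.sum_le_sum fun i hi => ?_
    have hi' : i ≤ n := Nat.lt_succ_iff.1 (Finset.mem_range.1 hi)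
    rw [iteratedFDerivWithin_of_isOpen i hs hzs, iteratedFDerivWithin_of_isOpen (n - i) hs hzs,
      mul_assoc]
    refine mul_le_mul_of_nonneg_left (mul_le_mul (hD i (hi'.trans hn) z hz) ?_ (norm_nonneg _)
      (by linarith)) (Nat.cast_nonneg _)
    exact (hb _ ((Nat.sub_le n i).trans hn)).trans
      (mul_le_mul_of_nonneg_left (pow_le_pow_right₀ hν (Nat.sub_le n i)) hB)
  have h2 : ∑ i ∈ Finset.range (n + 1), (n.choose i : ℝ) = 2 ^ n := by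
    exact_mod_cast Nat.sum_range_choose n
  rw [← Finset.sum_mul, h2] at h1
  have h3 : (2 : ℝ) ^ n ≤ 2 ^ j := pow_le_pow_right₀ one_le_two hn
  have h4 : 0 ≤ ν ^ n := pow_nonneg (by linarith) n
  calc _ ≤ ‖L‖ * (2 ^ n * (D * (B * ν ^ n))) := mul_le_mul_of_nonneg_left h1 L.opNorm_nonneg
    _ = ‖L‖ * 2 ^ n * D * B * ν ^ n := by ring
    _ ≤ (‖L‖ + 1) * 2 ^ j * D * B * ν ^ n := by gcongr; linarith

theorem comp_bound [NormedSpace ℝ V] {τ : E2 → E2} {K : Set E2} (hK : IsCompact K)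
    (hτ : ∀ z ∈ K, ContDiffAt ℝ ∞ τ z) (j : ℕ) :
    ∃ C : ℝ, 0 < C ∧ ∀ (u : E2 → V) (B ν : ℝ), 1 ≤ ν → ∀ z ∈ K, ContDiffAt ℝ ∞ u (τ z) →
      (∀ i ≤ j, ‖iteratedFDeriv ℝ i u (τ z)‖ ≤ B * ν ^ i) →
      ‖iteratedFDeriv ℝ j (u ∘ τ) z‖ ≤ C * B * ν ^ j := by
  obtain ⟨C, hC, h⟩ := cmp_comp (F := V) hK hτ j
  exact ⟨C, hC, fun u B ν hν z hz hu hb => h u B ν hν z hz hu hb j le_rfl⟩

theorem cmp_bil2 {X Y : Type*} [NormedAddCommGroup X] [NormedSpace ℝ X] [NormedAddCommGroup Y]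
    [NormedSpace ℝ Y] {A : E2 → X →L[ℝ] X} {P : E2 → Y →L[ℝ] Y} {K : Set E2} (hK : IsCompact K)
    (hA : ∀ z ∈ K, ContDiffAt ℝ ∞ A z) (hP : ∀ z ∈ K, ContDiffAt ℝ ∞ P z) (j : ℕ) :
    ∃ C : ℝ, 0 < C ∧ ∀ (T : E2 → X →L[ℝ] Y) (B ν : ℝ), 1 ≤ ν → ∀ z ∈ K, ContDiffAt ℝ ∞ T z →
      (∀ i ≤ j, ‖iteratedFDeriv ℝ i T z‖ ≤ B * ν ^ i) →
      ‖iteratedFDeriv ℝ j (fun x => (P x).comp ((T x).comp (A x))) z‖ ≤ C * B * ν ^ j := by
  obtain ⟨C₁, hC₁, h₁⟩ := cmp_bil (G := X →L[ℝ] Y) (H := X →L[ℝ] Y)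
    (ContinuousLinearMap.compL ℝ X X Y).flip hK hA j
  obtain ⟨C₂, hC₂, h₂⟩ := cmp_bil (F := Y →L[ℝ] Y) (G := X →L[ℝ] Y) (H := X →L[ℝ] Y)
    (ContinuousLinearMap.compL ℝ X Y Y) hK hP j
  refine ⟨C₂ * C₁, mul_pos hC₂ hC₁, fun T B ν hν z hz hT hb => ?_⟩
  have h3 := h₂ (fun x => (T x).comp (A x)) (C₁ * B) ν hν z hz (hT.clm_comp (hA z hz))
    (h₁ T B ν hν z hz hT hb) j le_rfl
  rw [← mul_assoc] at h3
  exact h3

theorem cmp_pre {X : Type*} [NormedAddCommGroup X] [NormedSpace ℝ X] {A : E2 → X →L[ℝ] X}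
    {z : E2} (hA : ContDiffAt ℝ ∞ A z) :
    ContDiffAt ℝ ∞ (fun x => (ContinuousLinearMap.compL ℝ X X ℝ).flip (A x)) z := by
  have h := (ContinuousLinearMap.contDiff (n := ∞) (F := (X →L[ℝ] ℝ) →L[ℝ] X →L[ℝ] ℝ)
    (ContinuousLinearMap.compL ℝ X X ℝ).flip).contDiffAt.comp z hA
  exact h

theorem bil_bound {A : E2 → E2 →L[ℝ] E2} {K : Set E2} (hK : IsCompact K)
    (hA : ∀ z ∈ K, ContDiffAt ℝ ∞ A z) (j : ℕ) :
    ∃ C : ℝ, 0 < C ∧ ∀ (T : E2 → Bil) (B ν : ℝ), 1 ≤ ν → ∀ z ∈ K, ContDiffAt ℝ ∞ T z →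
      (∀ i ≤ j, ‖iteratedFDeriv ℝ i T z‖ ≤ B * ν ^ i) →
      ‖iteratedFDeriv ℝ j (fun x => (T x).bilinearComp (A x) (A x)) z‖ ≤ C * B * ν ^ j := by
  obtain ⟨C, hC, h⟩ := cmp_bil2 (Y := E2 →L[ℝ] ℝ) hK hA (fun z hz => cmp_pre (hA z hz)) j
  refine ⟨C, hC, fun T B ν hν z hz hT hb => ?_⟩
  have e : (fun x => (T x).bilinearComp (A x) (A x)) = fun x =>
      ((ContinuousLinearMap.compL ℝ E2 E2 ℝ).flip (A x)).comp ((T x).comp (A x)) := by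
    funext x
    ext v w
    simp
  rw [e]
  exact h T B ν hν z hz hT hb

omit [ChartedSpace E2 M] [IsManifold I2 ∞ M] in
theorem cmp_compact [T2Space M] {φ ψ : Chart M} {K K' : Set E2} (hK : IsCompact K)
    (hKt : K ⊆ φ.target) (hK' : IsCompact K') (hKt' : K' ⊆ ψ.target) :
    IsCompact (K' ∩ ψ.symm ⁻¹' (φ.symm '' K)) :=
  hK'.of_isClosed_subset ((ψ.continuousOn_symm.mono hKt').preimage_isClosed_of_isClosed
    hK'.isClosed (hK.image_of_continuousOn (φ.continuousOn_symm.mono hKt)).isClosed)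
    inter_subset_left

omit [ChartedSpace E2 M] [IsManifold I2 ∞ M] in
theorem cmp_src {φ ψ : Chart M} {K K' : Set E2} (hKt : K ⊆ φ.target) {z : E2}
    (hz : z ∈ K' ∩ ψ.symm ⁻¹' (φ.symm '' K)) : ψ.symm z ∈ φ.source := by
  obtain ⟨-, w, hw, e⟩ := hz
  rw [← e]
  exact φ.map_target (hKt hw)

omit [ChartedSpace E2 M] [IsManifold I2 ∞ M] in
theorem cmp_ev {φ ψ : Chart M} {z : E2} (hz : z ∈ ψ.target) (hz' : ψ.symm z ∈ φ.source) :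
    ∀ᶠ x in 𝓝 z, x ∈ ψ.target ∧ ψ.symm x ∈ φ.source :=
  Filter.Eventually.and (ψ.open_target.mem_nhds hz)
    ((ψ.continuousAt_symm hz).eventually (φ.open_source.mem_nhds hz'))

theorem cmp_zero {F : Type*} [NormedAddCommGroup F] [NormedSpace ℝ F] {f : E2 → F} {z : E2}
    (h : ∀ᶠ x in 𝓝 z, f x = 0) (j : ℕ) : ‖iteratedFDeriv ℝ j f z‖ = 0 := by
  have h1 : f =ᶠ[𝓝 z] fun _ => 0 := h
  rw [(h1.iteratedFDeriv ℝ j).eq_of_nhds, iteratedFDeriv_fun_zero, Pi.zero_apply, norm_zero]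

theorem push_bound [T2Space M] [NormedSpace ℝ V] {φ ψ : Chart M} (hφ : IsCh φ) (hψ : IsCh ψ)
    {K K' : Set E2} (hK : IsCompact K) (hKt : K ⊆ φ.target) (hK' : IsCompact K')
    (hKt' : K' ⊆ ψ.target) (j : ℕ) :
    ∃ C : ℝ, 0 < C ∧ ∀ (U : E2 → V) (B ν : ℝ), 0 ≤ B → 1 ≤ ν → ContDiff ℝ ∞ U → support U ⊆ K →
      (∀ i ≤ j, ∀ z, ‖iteratedFDeriv ℝ i U z‖ ≤ B * ν ^ i) →
      ∀ z ∈ K', ‖iteratedFDeriv ℝ j (push φ U ∘ ψ.symm) z‖ ≤ C * B * ν ^ j := by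
  obtain ⟨C, hC, h⟩ := comp_bound (V := V) (cmp_compact hK hKt hK' hKt')
    (fun z hz => hφ.contDiffAt_trans hψ (hKt' hz.1) (cmp_src hKt hz)) j
  refine ⟨C, hC, fun U B ν hB hν hU hs hb z hz => ?_⟩
  by_cases hz' : ψ.symm z ∈ φ.symm '' K
  · have e : push φ U ∘ ψ.symm =ᶠ[𝓝 z] U ∘ (φ ∘ ψ.symm) := by
      filter_upwards [cmp_ev (hKt' hz) (cmp_src hKt ⟨hz, hz'⟩)] with x hx
      simp only [comp_apply, push, if_pos hx.2]
    rw [(e.iteratedFDeriv ℝ j).eq_of_nhds]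
    exact h U B ν hν z ⟨hz, hz'⟩ hU.contDiffAt fun i hi => hb i hi _
  · rw [cmp_zero (f := push φ U ∘ ψ.symm) (((ψ.continuousAt_symm (hKt' hz)).eventually
      (push_eventually_zero (V := V) φ hK hKt hz')).mono fun x hx => hx U hs)]
    have : 0 ≤ ν := by linarith
    positivity

theorem pushT_bound [T2Space M] {φ ψ : Chart M} (hφ : IsCh φ) (hψ : IsCh ψ)
    {K K' : Set E2} (hK : IsCompact K) (hKt : K ⊆ φ.target) (hK' : IsCompact K')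
    (hKt' : K' ⊆ ψ.target) (j : ℕ) :
    ∃ C : ℝ, 0 < C ∧ ∀ (T : E2 → Bil) (B ν : ℝ), 0 ≤ B → 1 ≤ ν → ContDiff ℝ ∞ T → support T ⊆ K →
      (∀ i ≤ j, ∀ z, ‖iteratedFDeriv ℝ i T z‖ ≤ B * ν ^ i) →
      ∀ z ∈ K', ‖iteratedFDeriv ℝ j (trep ψ (pushT φ T)) z‖ ≤ C * B * ν ^ j := by
  have hc := cmp_compact hK hKt hK' hKt'
  have hτ : ∀ z ∈ K' ∩ ψ.symm ⁻¹' (φ.symm '' K), ContDiffAt ℝ ∞ (φ ∘ ψ.symm) z :=
    fun z hz => hφ.contDiffAt_trans hψ (hKt' hz.1) (cmp_src hKt hz)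
  obtain ⟨C₁, hC₁, h₁⟩ := cmp_comp (F := Bil) hc hτ j
  obtain ⟨C₂, hC₂, h₂⟩ := bil_bound (A := fderiv ℝ (φ ∘ ψ.symm)) hc
    (fun z hz => (hτ z hz).fderiv_right (by simp)) j
  refine ⟨C₂ * C₁, mul_pos hC₂ hC₁, fun T B ν hB hν hT hs hb z hz => ?_⟩
  by_cases hz' : ψ.symm z ∈ φ.symm '' K
  · have e : trep ψ (pushT φ T) =ᶠ[𝓝 z] fun x => ((T ∘ (φ ∘ ψ.symm)) x).bilinearComp
        (fderiv ℝ (φ ∘ ψ.symm) x) (fderiv ℝ (φ ∘ ψ.symm) x) := by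
      filter_upwards [cmp_ev (hKt' hz) (cmp_src hKt ⟨hz, hz'⟩)] with x hx
      rw [trep_trans hφ hψ _ hx.1 hx.2, trep_pushT hφ T (z := (φ ∘ ψ.symm) x) (φ.map_source hx.2)]
      rfl
    rw [(e.iteratedFDeriv ℝ j).eq_of_nhds]
    have h3 := h₂ _ (C₁ * B) ν hν z ⟨hz, hz'⟩ (hT.contDiffAt.comp z (hτ z ⟨hz, hz'⟩))
      (h₁ T B ν hν z ⟨hz, hz'⟩ hT.contDiffAt fun i hi => hb i hi _)
    rwa [← mul_assoc] at h3
  · rw [cmp_zero (f := trep ψ (pushT φ T)) (((ψ.continuousAt_symm (hKt' hz)).eventually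
      (pushT_eventually_zero φ hK hKt hz')).mono fun x hx => ?_)]
    · have : 0 ≤ ν := by linarith
      positivity
    · rw [trep, hx T hs]
      ext v w
      rfl

end Vale.Agent.P205
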