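import Vale.Agent.P205.Api.Ind

/-!
Cross product of three vectors of R^4. Everything is a polynomial identity in coordinates:
simp [cross, EuclideanSpace.inner_eq_star_dotProduct or PiLp.inner_apply, Fin.sum_univ_four,
EuclideanSpace.real_norm_sq_eq], ring. cross_ne_zero: if the Gram determinant vanishes the three
vectors are dependent (or: all four 3 x 3 minors vanish; argue with Matrix.exists_mulVec_eq_zero_iff
for the Gram matrix). span4: v - sum is orthogonal to an orthonormal family of four vectors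
(basisOfOrthonormalOfCardEqFinrank / OrthonormalBasis.sum_repr').
-/

open scoped Manifold ContDiff Topology RealInnerProductSpace
open Set Filter Metric Function

noncomputable section

namespace Vale.Agent.P205

/-- The determinant of a 3 x 3 array. -/
def det3 (a0 a1 a2 b0 b1 b2 c0 c1 c2 : ℝ) : ℝ :=
  a0 * (b1 * c2 - b2 * c1) - a1 * (b0 * c2 - b2 * c0) + a2 * (b0 * c1 - b1 * c0)

/-- Cross product in R^4. -/
def cross (a b c : E4) : E4 :=
  !₂[det3 (a 1) (a 2) (a 3) (b 1) (b 2) (b 3) (c 1) (c 2) (c 3),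
    -det3 (a 0) (a 2) (a 3) (b 0) (b 2) (b 3) (c 0) (c 2) (c 3),
    det3 (a 0) (a 1) (a 3) (b 0) (b 1) (b 3) (c 0) (c 1) (c 3),
    -det3 (a 0) (a 1) (a 2) (b 0) (b 1) (b 2) (c 0) (c 1) (c 2)]

theorem inner4 (a b : E4) : ⟪a, b⟫ = a 0 * b 0 + a 1 * b 1 + a 2 * b 2 + a 3 * b 3 := by
  simp only [PiLp.inner_apply, Fin.sum_univ_four, RCLike.inner_apply, conj_trivial]
  ring

theorem cross_0 (a b c : E4) :
    cross a b c 0 = det3 (a 1) (a 2) (a 3) (b 1) (b 2) (b 3) (c 1) (c 2) (c 3) := rfl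

theorem cross_1 (a b c : E4) :
    cross a b c 1 = -det3 (a 0) (a 2) (a 3) (b 0) (b 2) (b 3) (c 0) (c 2) (c 3) := rfl

theorem cross_2 (a b c : E4) :
    cross a b c 2 = det3 (a 0) (a 1) (a 3) (b 0) (b 1) (b 3) (c 0) (c 1) (c 3) := rfl

theorem cross_3 (a b c : E4) :
    cross a b c 3 = -det3 (a 0) (a 1) (a 2) (b 0) (b 1) (b 2) (c 0) (c 1) (c 2) := rfl

theorem inner_cross_1 (a b c : E4) : ⟪a, cross a b c⟫ = 0 := by
  rw [inner4, cross_0, cross_1, cross_2, cross_3]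
  unfold det3
  ring

theorem inner_cross_2 (a b c : E4) : ⟪b, cross a b c⟫ = 0 := by
  rw [inner4, cross_0, cross_1, cross_2, cross_3]
  unfold det3
  ring

theorem inner_cross_3 (a b c : E4) : ⟪c, cross a b c⟫ = 0 := by
  rw [inner4, cross_0, cross_1, cross_2, cross_3]
  unfold det3
  ring

theorem norm_cross_sq (a b c : E4) : ‖cross a b c‖ ^ 2 =
    det3 ⟪a, a⟫ ⟪a, b⟫ ⟪a, c⟫ ⟪a, b⟫ ⟪b, b⟫ ⟪b, c⟫ ⟪a, c⟫ ⟪b, c⟫ ⟪c, c⟫ := by
  rw [← real_inner_self_eq_norm_sq]
  simp only [inner4, cross_0, cross_1, cross_2, cross_3, det3]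
  ring

theorem norm_cross_of_orthonormal {a b c : E4} (ha : ‖a‖ = 1) (hb : ‖b‖ = 1) (hc : ‖c‖ = 1)
    (hab : ⟪a, b⟫ = 0) (hac : ⟪a, c⟫ = 0) (hbc : ⟪b, c⟫ = 0) : ‖cross a b c‖ = 1 := by
  have h := norm_cross_sq a b c
  rw [real_inner_self_eq_norm_sq, real_inner_self_eq_norm_sq, real_inner_self_eq_norm_sq, ha, hb,
    hc, hab, hac, hbc] at h
  have h1 : ‖cross a b c‖ ^ 2 = 1 ^ 2 := by
    rw [h, det3]
    ring
  exact (pow_left_inj₀ (norm_nonneg _) zero_le_one two_ne_zero).1 h1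

theorem contDiff_cross : ContDiff ℝ ∞ (fun p : E4 × E4 × E4 => cross p.1 p.2.1 p.2.2) := by
  rw [contDiff_euclidean]
  intro i
  fin_cases i
  · change ContDiff ℝ ∞ (fun p : E4 × E4 × E4 => cross p.1 p.2.1 p.2.2 0)
    simp only [cross_0, det3]
    fun_prop
  · change ContDiff ℝ ∞ (fun p : E4 × E4 × E4 => cross p.1 p.2.1 p.2.2 1)
    simp only [cross_1, det3]
    fun_prop
  · change ContDiff ℝ ∞ (fun p : E4 × E4 × E4 => cross p.1 p.2.1 p.2.2 2)
    simp only [cross_2, det3]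
    fun_prop
  · change ContDiff ℝ ∞ (fun p : E4 × E4 × E4 => cross p.1 p.2.1 p.2.2 3)
    simp only [cross_3, det3]
    fun_prop

theorem cross_ne_zero {A : E2 →L[ℝ] E4} {c : E4} (h : Ind A c) :
    cross (A ex) (A ey) c ≠ 0 := by
  intro h0
  have h1 := norm_cross_sq (A ex) (A ey) c
  rw [h0, norm_zero] at h1
  have h2 : LinearIndependent ℝ ![A ex, A ey, c] := by
    rw [Fintype.linearIndependent_iff]
    intro g hg
    rw [Fin.sum_univ_three] at hg
    obtain ⟨h3, h4⟩ := h (g 0 • ex + g 1 • ey) (g 2) (by rw [map_add, map_smul, map_smul]; exact hg)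
    have h5 := congrArg (fun v : E2 => v 0) h3
    have h6 := congrArg (fun v : E2 => v 1) h3
    simp [ex, ey] at h5 h6
    intro i
    fin_cases i
    · exact h5
    · exact h6
    · exact h4
  apply Matrix.det_gram_ne_zero_iff_linearIndependent.2 h2
  rw [Matrix.det_fin_three]
  simp only [Matrix.gram_apply, Matrix.cons_val_zero, Matrix.cons_val_one, Matrix.cons_val_two,
    Matrix.head_cons, Matrix.tail_cons]
  rw [real_inner_comm (A ex) (A ey), real_inner_comm (A ex) c, real_inner_comm (A ey) c]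
  rw [det3] at h1
  linear_combination -h1

theorem eq_ex_ey' (v : E2) : v = v 0 • ex + v 1 • ey := by
  ext i
  fin_cases i <;> simp [ex, ey]

theorem inner_apply_cross (A : E2 →L[ℝ] E4) (c : E4) (ξ : E2) :
    ⟪A ξ, cross (A ex) (A ey) c⟫ = 0 := by
  rw [eq_ex_ey' ξ, map_add, map_smul, map_smul, inner_add_left, real_inner_smul_left,
    real_inner_smul_left, inner_cross_1, inner_cross_2]
  ring

theorem eq_ex_ey (v : E2) : v = v 0 • ex + v 1 • ey := by
  exact eq_ex_ey' v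

/-- Four orthonormal vectors span. -/
theorem span4 {a b c d : E4} (ha : ‖a‖ = 1) (hb : ‖b‖ = 1) (hc : ‖c‖ = 1) (hd : ‖d‖ = 1)
    (hab : ⟪a, b⟫ = 0) (hac : ⟪a, c⟫ = 0) (had : ⟪a, d⟫ = 0) (hbc : ⟪b, c⟫ = 0)
    (hbd : ⟪b, d⟫ = 0) (hcd : ⟪c, d⟫ = 0) (v : E4) :
    v = ⟪a, v⟫ • a + ⟪b, v⟫ • b + ⟪c, v⟫ • c + ⟪d, v⟫ • d := by
  have h : Orthonormal ℝ ![a, b, c, d] := by
    rw [orthonormal_iff_ite]
    intro i j
    fin_cases i <;> fin_cases j <;>
      simp [ha, hb, hc, hd, hab, hac, had, hbc, hbd, hcd, real_inner_comm a b, real_inner_comm a c,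
        real_inner_comm a d, real_inner_comm b c, real_inner_comm b d, real_inner_comm c d]
  have h1 := ((basisOfOrthonormalOfCardEqFinrank h (by simp)).toOrthonormalBasis
    (by rwa [coe_basisOfOrthonormalOfCardEqFinrank])).sum_repr' v
  rw [Module.Basis.coe_toOrthonormalBasis, coe_basisOfOrthonormalOfCardEqFinrank,
    Fin.sum_univ_four] at h1
  exact h1.symm

/-- The horseshoe loop avoids the negative axis. -/
theorem horseshoe {β s θ : ℝ} (hβ : 0 < β) (hs : 0 ≤ s) :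
    β + s * (-2 * Real.cos (2 * θ)) ≠ 0 ∨ s * Real.cos θ ≠ 0 := by
  by_contra h
  push Not at h
  obtain ⟨h1, h2⟩ := h
  rw [Real.cos_two_mul] at h1
  have h3 : s * Real.cos θ ^ 2 = 0 := by rw [sq, ← mul_assoc, h2, zero_mul]
  linarith

theorem horseshoe_quant {β s : ℝ} (θ : ℝ) (hβ : 0 ≤ β) (hs : 0 ≤ s) :
    (β + s) ^ 2 / 100 ≤ (β + s * (-2 * Real.cos (2 * θ))) ^ 2 + (s * Real.cos θ) ^ 2 := by
  rw [Real.cos_two_mul]
  have h1 := Real.abs_cos_le_one θ
  have h2 := abs_nonneg (Real.cos θ)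
  rw [mul_pow, ← sq_abs (Real.cos θ), ← mul_pow]
  generalize |Real.cos θ| = u at h1 h2
  have h3 : s * u ^ 2 ≤ s * u := mul_le_mul_of_nonneg_left (by nlinarith) hs
  have h4 : β + s ≤ β + s * (-2 * (2 * u ^ 2 - 1)) + 4 * (s * u) := by linarith
  have h5 := pow_le_pow_left₀ (add_nonneg hβ hs) h4 2
  generalize β + s * (-2 * (2 * u ^ 2 - 1)) = X at h5
  generalize s * u = Y at h5
  nlinarith [sq_nonneg (4 * X - Y), sq_nonneg X, sq_nonneg Y]

end Vale.Agent.P205
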