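import Vale.Agent.P205.Defs

/-!
Linear algebra and calculus of Ind, IndQ, D2 on the plane.
Ind.exists_indQ: minimum of the norm on the compact set of (ξ, t) with ‖ξ‖ + |t| = 1, or
LinearMap.exists_antilipschitzWith for the injective linear map E2 × ℝ → E4.
D2_comp: fderiv (u ∘ τ) = (fderiv u ∘ τ) ∘L fderiv τ near z, differentiate (HasFDerivAt.clm_comp).
indQ_comp: A ξ' + t c' with ξ' = τ' ξ + t τ''(v,v), c' = ‖τ' v‖^2 • D2 u (unit vector).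
-/

open scoped Manifold ContDiff Topology RealInnerProductSpace
open Set Filter Metric Function

noncomputable section

namespace Vale.Agent.P205

variable {V : Type} [NormedAddCommGroup V] [NormedSpace ℝ V]

theorem IndQ.ind {κ : ℝ} (hκ : 0 < κ) {A : E2 →L[ℝ] E4} {c : E4} (h : IndQ κ A c) : Ind A c := by
  intro ξ t h1
  have h2 := h ξ t
  rw [h1, norm_zero] at h2
  have h3 := le_of_mul_le_mul_left (h2.trans_eq (mul_zero κ).symm) hκ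
  exact ⟨norm_le_zero_iff.1 (by linarith [abs_nonneg t]),
    abs_nonpos_iff.1 (by linarith [norm_nonneg ξ])⟩

theorem Ind.exists_indQ {A : E2 →L[ℝ] E4} {c : E4} (h : Ind A c) :
    ∃ κ : ℝ, 0 < κ ∧ IndQ κ A c := by
  obtain ⟨K, hK, h1⟩ := LinearMap.exists_antilipschitzWith
    (A.toLinearMap.coprod (LinearMap.toSpanSingleton ℝ E4 c))
    (LinearMap.ker_eq_bot'.2 fun x hx => Prod.ext (h x.1 x.2 hx).1 (h x.1 x.2 hx).2)
  have h0 : (0 : ℝ) < K := hK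
  refine ⟨(2 * K)⁻¹, by positivity, fun ξ t => ?_⟩
  have h2 : ‖(ξ, t)‖ ≤ K * ‖A ξ + t • c‖ := ZeroHomClass.bound_of_antilipschitz _ h1 (ξ, t)
  have h3 : ‖ξ‖ ≤ ‖(ξ, t)‖ := norm_fst_le (ξ, t)
  have h4 : |t| ≤ ‖(ξ, t)‖ := norm_snd_le (ξ, t)
  rw [inv_mul_le_iff₀ (by positivity)]
  linarith

theorem IndQ.mono {κ κ' : ℝ} (hκ : κ' ≤ κ) {A : E2 →L[ℝ] E4} {c : E4} (h : IndQ κ A c) :
    IndQ κ' A c := by
  exact fun ξ t => (mul_le_mul_of_nonneg_right hκ (by positivity)).trans (h ξ t)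

theorem IndQ.perturb {κ ε : ℝ} {A A' : E2 →L[ℝ] E4} {c c' : E4} (h : IndQ κ A c)
    (hA : ‖A' - A‖ ≤ ε) (hc : ‖c' - c‖ ≤ ε) : IndQ (κ - ε) A' c' := by
  intro ξ t
  have h1 : A ξ + t • c = A' ξ + t • c' - ((A' - A) ξ + t • (c' - c)) := by
    rw [sub_apply, smul_sub]
    abel
  have h2 := (h ξ t).trans (h1 ▸ norm_sub_le _ _)
  have h3 := norm_add_le ((A' - A) ξ) (t • (c' - c))
  have h4 := (A' - A).le_of_opNorm_le hA ξ
  have h5 := mul_le_mul_of_nonneg_left hc (abs_nonneg t)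
  rw [norm_smul, Real.norm_eq_abs] at h3
  linarith

theorem IndQ.smul {κ s : ℝ} (hκ : 0 ≤ κ) (hs : 1 ≤ s) {A : E2 →L[ℝ] E4} {c : E4}
    (h : IndQ κ A c) : IndQ κ A (s • c) := by
  intro ξ t
  rw [smul_smul]
  refine le_trans ?_ (h ξ (t * s))
  rw [abs_mul, abs_of_nonneg (zero_le_one.trans hs)]
  gcongr
  exact le_mul_of_one_le_right (abs_nonneg t) hs

/-- Uniform constant on a compact set. -/
theorem exists_indQ_compact {X : Type*} [TopologicalSpace X] {K : Set X} (hK : IsCompact K)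
    {A : X → E2 →L[ℝ] E4} {c : X → E4} (hA : ContinuousOn A K) (hc : ContinuousOn c K)
    (h : ∀ x ∈ K, Ind (A x) (c x)) : ∃ κ : ℝ, 0 < κ ∧ ∀ x ∈ K, IndQ κ (A x) (c x) := by
  refine hK.induction_on (p := fun K => ∃ κ : ℝ, 0 < κ ∧ ∀ x ∈ K, IndQ κ (A x) (c x))
    ⟨1, one_pos, by simp⟩ (fun s t hst ⟨κ, h1, h2⟩ => ⟨κ, h1, fun x hx => h2 x (hst hx)⟩)
    (fun s t ⟨κ, h1, h2⟩ ⟨κ', h3, h4⟩ => ⟨min κ κ', lt_min h1 h3, fun x hx => hx.elim
      (fun hx => (h2 x hx).mono (min_le_left _ _)) fun hx => (h4 x hx).mono (min_le_right _ _)⟩)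
    fun x hx => ?_
  obtain ⟨κ, h1, h2⟩ := (h x hx).exists_indQ
  refine ⟨_, inter_mem (hA x hx (closedBall_mem_nhds _ (half_pos h1)))
    (hc x hx (closedBall_mem_nhds _ (half_pos h1))), κ - κ / 2, by linarith, fun y hy => ?_⟩
  exact h2.perturb (mem_closedBall_iff_norm.1 hy.1) (mem_closedBall_iff_norm.1 hy.2)

theorem D2_smul (u : E2 → V) (z v : E2) (s : ℝ) : D2 u z (s • v) = s ^ 2 • D2 u z v := by
  simp only [D2, map_smul, smul_apply, smul_smul, sq]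

theorem D2_congr {u u' : E2 → V} {z : E2} (h : u =ᶠ[𝓝 z] u') (v : E2) :
    D2 u z v = D2 u' z v := by
  rw [D2, D2, h.fderiv.fderiv_eq]

theorem ind_one : (1 : WithTop ℕ∞) ≤ ∞ := by exact_mod_cast le_top

theorem ind_diff {u : E2 → V} {z : E2} (hu : ContDiffAt ℝ ∞ u z) :
    DifferentiableAt ℝ (fderiv ℝ u) z :=
  (hu.fderiv_right (m := ∞) le_rfl).differentiableAt (by simp)

theorem D2_add {u u' : E2 → V} {z : E2} (hu : ContDiffAt ℝ ∞ u z) (hu' : ContDiffAt ℝ ∞ u' z)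
    (v : E2) : D2 (u + u') z v = D2 u z v + D2 u' z v := by
  have h1 : fderiv ℝ (u + u') =ᶠ[𝓝 z] fderiv ℝ u + fderiv ℝ u' := by
    filter_upwards [(hu.of_le ind_one).eventually (by simp),
      (hu'.of_le ind_one).eventually (by simp)] with y h1 h2
    exact fderiv_add (h1.differentiableAt one_ne_zero) (h2.differentiableAt one_ne_zero)
  rw [D2, h1.fderiv_eq, fderiv_add (ind_diff hu) (ind_diff hu')]
  rfl

theorem norm_D2_le (u : E2 → V) (z v : E2) :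
    ‖D2 u z v‖ ≤ ‖iteratedFDeriv ℝ 2 u z‖ * ‖v‖ ^ 2 := by
  have h1 := (iteratedFDeriv ℝ 2 u z).le_opNorm ![v, v]
  rwa [iteratedFDeriv_two_apply, Fin.prod_univ_two, Matrix.cons_val_zero, Matrix.cons_val_one,
    Matrix.cons_val_zero, ← sq] at h1

theorem D2_comp {u : E2 → V} {τ : E2 → E2} {z : E2} (hu : ContDiffAt ℝ ∞ u (τ z))
    (hτ : ContDiffAt ℝ ∞ τ z) (v : E2) :
    D2 (u ∘ τ) z v = D2 u (τ z) (fderiv ℝ τ z v) + fderiv ℝ u (τ z) (D2 τ z v) := by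
  have h1 : fderiv ℝ (u ∘ τ) =ᶠ[𝓝 z] fun y => (fderiv ℝ u (τ y)).comp (fderiv ℝ τ y) := by
    filter_upwards [hτ.continuousAt.eventually ((hu.of_le ind_one).eventually (by simp)),
      (hτ.of_le ind_one).eventually (by simp)] with y h1 h2
    exact fderiv_comp y (h1.differentiableAt one_ne_zero) (h2.differentiableAt one_ne_zero)
  have h2 := ((ind_diff hu).hasFDerivAt.comp z
    (hτ.differentiableAt (by simp)).hasFDerivAt).clm_comp (ind_diff hτ).hasFDerivAt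
  rw [D2, h1.fderiv_eq]
  refine (congrArg (fun L : E2 →L[ℝ] E2 →L[ℝ] V => L v v) h2.fderiv).trans ?_
  simp [D2, add_comm]

theorem ind_eq {u : E2 → V} {τ : E2 → E2} {z : E2} (hu : ContDiffAt ℝ ∞ u (τ z))
    (hτ : ContDiffAt ℝ ∞ τ z) (v ξ : E2) (t : ℝ) :
    fderiv ℝ (u ∘ τ) z ξ + t • D2 (u ∘ τ) z v =
      fderiv ℝ u (τ z) (fderiv ℝ τ z ξ + t • D2 τ z v) + t • D2 u (τ z) (fderiv ℝ τ z v) := by
  rw [D2_comp hu hτ, fderiv_comp z (hu.differentiableAt (by simp)) (hτ.differentiableAt (by simp)),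
    map_add, map_smul, smul_add, ContinuousLinearMap.comp_apply]
  abel

theorem ind_comp {u : E2 → E4} {τ : E2 → E2} {z : E2} (hu : ContDiffAt ℝ ∞ u (τ z))
    (hτ : ContDiffAt ℝ ∞ τ z) (hi : Injective (fderiv ℝ τ z)) {v : E2}
    (h : Ind (fderiv ℝ u (τ z)) (D2 u (τ z) (fderiv ℝ τ z v))) :
    Ind (fderiv ℝ (u ∘ τ) z) (D2 (u ∘ τ) z v) := by
  intro ξ t h1
  rw [ind_eq hu hτ] at h1
  obtain ⟨h2, rfl⟩ := h _ _ h1
  rw [zero_smul, add_zero] at h2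
  exact ⟨hi (h2.trans (map_zero _).symm), rfl⟩

/-- Quantitative transfer; the constant depends only on c and B. -/
theorem indQ_comp {c B : ℝ} (hc : 0 < c) : ∃ a : ℝ, 0 < a ∧ ∀ (u : E2 → E4) (τ : E2 → E2)
    (z v : E2) (κ : ℝ), 0 ≤ κ → ContDiffAt ℝ ∞ u (τ z) → ContDiffAt ℝ ∞ τ z → ‖v‖ = 1 →
    (∀ ξ, c * ‖ξ‖ ≤ ‖fderiv ℝ τ z ξ‖) → ‖D2 τ z v‖ ≤ B →
    IndQ κ (fderiv ℝ u (τ z)) (D2 u (τ z) (‖fderiv ℝ τ z v‖⁻¹ • fderiv ℝ τ z v)) →
    IndQ (a * κ) (fderiv ℝ (u ∘ τ) z) (D2 (u ∘ τ) z v) := by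
  refine ⟨min (c ^ 2) 1 * (c / (1 + |B| + c)), by positivity,
    fun u τ z v κ hκ hu hτ hv h1 h2 h3 ξ t => ?_⟩
  have h4 : c ≤ ‖fderiv ℝ τ z v‖ := by simpa [hv] using h1 v
  have h5 : 0 < ‖fderiv ℝ τ z v‖ := hc.trans_le h4
  have h6 := h3 (fderiv ℝ τ z ξ + t • D2 τ z v) (t * ‖fderiv ℝ τ z v‖ ^ 2)
  rw [D2_smul, smul_smul, mul_assoc, ← mul_pow, mul_inv_cancel₀ h5.ne', one_pow, mul_one,
    ← ind_eq hu hτ, abs_mul, abs_sq] at h6
  refine le_trans ?_ h6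
  rw [mul_comm _ κ, mul_assoc]
  refine mul_le_mul_of_nonneg_left ?_ hκ
  have a1 : c * ‖ξ‖ ≤ ‖fderiv ℝ τ z ξ + t • D2 τ z v‖ + |t| * |B| := by
    have := norm_sub_le (fderiv ℝ τ z ξ + t • D2 τ z v) (t • D2 τ z v)
    rw [add_sub_cancel_right, norm_smul, Real.norm_eq_abs] at this
    linarith [h1 ξ, mul_le_mul_of_nonneg_left (h2.trans (le_abs_self B)) (abs_nonneg t)]
  have a2 := norm_nonneg (fderiv ℝ τ z ξ + t • D2 τ z v)
  have a3 : c / (1 + |B| + c) * (‖ξ‖ + |t|) ≤ ‖fderiv ℝ τ z ξ + t • D2 τ z v‖ + |t| := by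
    rw [div_mul_eq_mul_div, div_le_iff₀ (by positivity)]
    nlinarith [abs_nonneg t, mul_nonneg a2 (abs_nonneg B), mul_nonneg a2 hc.le]
  have a4 : min (c ^ 2) 1 ≤ ‖fderiv ℝ τ z v‖ ^ 2 := (min_le_left _ _).trans (by gcongr)
  rw [mul_assoc]
  refine (mul_le_mul_of_nonneg_left a3 (by positivity)).trans ?_
  rw [mul_add, mul_comm |t|]
  exact add_le_add (mul_le_of_le_one_left a2 (min_le_right _ _))
    (mul_le_mul_of_nonneg_right a4 (abs_nonneg t))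

end Vale.Agent.P205
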