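import Vale.Agent.P205.Api.Ch
import Vale.Agent.P205.Api.Ind

/-!
Good1, Good2, UG1, UG2.
Change of chart: F ∘ ψ.symm = (F ∘ φ.symm) ∘ τ near z with τ = φ ∘ ψ.symm; fderiv τ is bijective
(fderiv_trans, dS_dM, dM_dS); use ind_comp, indQ_comp. In the uniform lemmas work on a compact
neighbourhood of z0 ∈ K where fderiv τ is bounded below and the second derivative above, then
IsCompact.induction_on (κ by min). UG1.good1: exists_fin_cover, IndQ.perturb with Close2 at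
ε = κ / 2 (norm_D2_le, norm_iteratedFDeriv_one style lemmas), then good1_of_local.
-/

open scoped Manifold ContDiff Topology RealInnerProductSpace
open Set Filter Metric Function

noncomputable section

namespace Vale.Agent.P205

variable {M : Type*} [TopologicalSpace M] [ChartedSpace E2 M] [IsManifold I2 ∞ M]
variable {ι : Type} {l : Filter ι}

omit [ChartedSpace E2 M] [IsManifold I2 ∞ M] in
theorem good_ev {φ ψ : Chart M} {z : E2} (hz : z ∈ ψ.target) (hz' : ψ.symm z ∈ φ.source) :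
    ∀ᶠ w in 𝓝 z, w ∈ ψ.target ∧ ψ.symm w ∈ φ.source := by
  have h1 : ∀ᶠ w in 𝓝 z, w ∈ ψ.target := ψ.open_target.mem_nhds hz
  exact h1.and ((ψ.continuousAt_symm hz).eventually (φ.open_source.mem_nhds hz'))

omit [ChartedSpace E2 M] [IsManifold I2 ∞ M] in
theorem good_trans {α : Type*} (F : M → α) {φ ψ : Chart M} {z : E2} (hz : z ∈ ψ.target)
    (hz' : ψ.symm z ∈ φ.source) : F ∘ ψ.symm =ᶠ[𝓝 z] (F ∘ φ.symm) ∘ (φ ∘ ψ.symm) := by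
  filter_upwards [good_ev hz hz'] with w hw
  simp only [Function.comp_apply, φ.left_inv hw.2]

theorem good_bij {φ ψ : Chart M} (hφ : IsCh φ) (hψ : IsCh ψ) {z : E2} (hz : z ∈ ψ.target)
    (hz' : ψ.symm z ∈ φ.source) : Bijective (fderiv ℝ (φ ∘ ψ.symm) z) := by
  have hp := ψ.map_target hz
  have h1 := dS_dM hψ hp
  have h2 := dM_dS hψ hp
  rw [ψ.right_inv hz] at h1 h2
  rw [fderiv_trans hφ hψ hz hz']
  constructor
  · exact (LeftInverse.injective (dS_dM hφ hz')).comp (LeftInverse.injective h2)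
  · exact (RightInverse.surjective (dM_dS hφ hz')).comp (RightInverse.surjective h1)

theorem good_c1 {V : Type} [NormedAddCommGroup V] [NormedSpace ℝ V] {u : E2 → V} {z : E2}
    (h : ContDiffAt ℝ ∞ u z) : ContDiffAt ℝ ∞ (fderiv ℝ u) z := h.fderiv_right (by simp)

theorem good_ind_smul {A : E2 →L[ℝ] E4} {c : E4} (h : Ind A c) {s : ℝ} (hs : s ≠ 0) :
    Ind A (s • c) := fun ξ t ht => by
  rw [smul_smul] at ht
  obtain ⟨h1, h2⟩ := h ξ _ ht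
  exact ⟨h1, (mul_eq_zero.1 h2).resolve_right hs⟩

theorem good_chain {V : Type} [NormedAddCommGroup V] [NormedSpace ℝ V] {F : M → V} (hF : Sm F)
    {φ ψ : Chart M} (hφ : IsCh φ) (hψ : IsCh ψ) {z : E2} (hz : z ∈ ψ.target)
    (hz' : ψ.symm z ∈ φ.source) (v : E2) : fderiv ℝ (F ∘ ψ.symm) z v =
      fderiv ℝ (F ∘ φ.symm) (φ (ψ.symm z)) (fderiv ℝ (φ ∘ ψ.symm) z v) := by
  rw [(good_trans F hz hz').fderiv_eq, fderiv_comp z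
    ((hF.contDiffAt hφ (φ.map_source hz')).differentiableAt (by simp))
    ((hφ.contDiffAt_trans hψ hz hz').differentiableAt (by simp))]
  rfl

theorem good_ind {F : M → E4} (hF : Sm F) {φ ψ : Chart M} (hφ : IsCh φ) (hψ : IsCh ψ) {z : E2}
    (hz : z ∈ ψ.target) (hz' : ψ.symm z ∈ φ.source) {v : E2}
    (h : Ind (fderiv ℝ (F ∘ φ.symm) (φ (ψ.symm z)))
      (D2 (F ∘ φ.symm) (φ (ψ.symm z)) (fderiv ℝ (φ ∘ ψ.symm) z v))) :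
    Ind (fderiv ℝ (F ∘ ψ.symm) z) (D2 (F ∘ ψ.symm) z v) := by
  rw [(good_trans F hz hz').fderiv_eq, D2_congr (good_trans F hz hz')]
  exact ind_comp (hF.contDiffAt hφ (φ.map_source hz')) (hφ.contDiffAt_trans hψ hz hz')
    (good_bij hφ hψ hz hz').1 h

theorem good_loc {φ ψ : Chart M} (hφ : IsCh φ) (hψ : IsCh ψ) {z₀ : E2} (hz : z₀ ∈ ψ.target)
    (hz' : ψ.symm z₀ ∈ φ.source) : ∃ a : ℝ, 0 < a ∧ ∀ᶠ z in 𝓝 z₀,
      (z ∈ ψ.target ∧ ψ.symm z ∈ φ.source) ∧ ∀ F : M → E4, Sm F → ∀ (v : E2) (κ : ℝ), 0 ≤ κ →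
        ‖v‖ = 1 → IndQ κ (fderiv ℝ (F ∘ φ.symm) (φ (ψ.symm z))) (D2 (F ∘ φ.symm) (φ (ψ.symm z))
          (‖fderiv ℝ (φ ∘ ψ.symm) z v‖⁻¹ • fderiv ℝ (φ ∘ ψ.symm) z v)) →
        IndQ (a * κ) (fderiv ℝ (F ∘ ψ.symm) z) (D2 (F ∘ ψ.symm) z v) := by
  have hτ := hφ.contDiffAt_trans hψ hz hz'
  obtain ⟨K, hK0, hK⟩ := LinearMap.exists_antilipschitzWith
    (fderiv ℝ (φ ∘ ψ.symm) z₀ : E2 →ₗ[ℝ] E2) (LinearMap.ker_eq_bot.2 (good_bij hφ hψ hz hz').1)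
  have hK1 : (0 : ℝ) < K := hK0
  have hc : (0 : ℝ) < (K : ℝ)⁻¹ / 2 := by positivity
  obtain ⟨a, ha, H⟩ := indQ_comp (B := ‖fderiv ℝ (fderiv ℝ (φ ∘ ψ.symm)) z₀‖ + 1) hc
  refine ⟨a, ha, ?_⟩
  have h1 : ∀ᶠ z in 𝓝 z₀, dist (fderiv ℝ (φ ∘ ψ.symm) z) (fderiv ℝ (φ ∘ ψ.symm) z₀) < (K : ℝ)⁻¹ / 2 :=
    Metric.tendsto_nhds.1 (good_c1 hτ).continuousAt _ hc
  have h2 : ∀ᶠ z in 𝓝 z₀, ‖fderiv ℝ (fderiv ℝ (φ ∘ ψ.symm)) z‖ <
      ‖fderiv ℝ (fderiv ℝ (φ ∘ ψ.symm)) z₀‖ + 1 :=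
    (good_c1 (good_c1 hτ)).continuousAt.norm.eventually_lt continuousAt_const (lt_add_one _)
  filter_upwards [good_ev hz hz', h1, h2] with z h3 h4 h5
  refine ⟨h3, fun F hF v κ hκ hv h => ?_⟩
  rw [(good_trans F h3.1 h3.2).fderiv_eq, D2_congr (good_trans F h3.1 h3.2)]
  refine H _ _ z v κ hκ (hF.contDiffAt hφ (φ.map_source h3.2))
    (hφ.contDiffAt_trans hψ h3.1 h3.2) hv (fun ξ => ?_) ?_ h
  · have h6 : ‖ξ‖ ≤ K * ‖fderiv ℝ (φ ∘ ψ.symm) z₀ ξ‖ := ZeroHomClass.bound_of_antilipschitz _ hK ξ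
    have h7 : (K : ℝ)⁻¹ * ‖ξ‖ ≤ ‖fderiv ℝ (φ ∘ ψ.symm) z₀ ξ‖ := (inv_mul_le_iff₀ hK1).2 h6
    rw [dist_comm, dist_eq_norm] at h4
    have h8 := (fderiv ℝ (φ ∘ ψ.symm) z₀ - fderiv ℝ (φ ∘ ψ.symm) z).le_of_opNorm_le h4.le ξ
    have h9 := norm_sub_norm_le (fderiv ℝ (φ ∘ ψ.symm) z₀ ξ) (fderiv ℝ (φ ∘ ψ.symm) z ξ)
    rw [sub_apply] at h8
    linarith
  · refine ((fderiv ℝ (fderiv ℝ (φ ∘ ψ.symm)) z).le_opNorm₂ v v).trans ?_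
    rw [hv, mul_one, mul_one]
    exact h5.le

theorem good_compact {K : Set E2} (hK : IsCompact K) {P : ℝ → ι → E2 → Prop}
    (hP : ∀ κ κ' i z, κ' ≤ κ → P κ i z → P κ' i z)
    (h : ∀ z₀ ∈ K, ∃ κ : ℝ, 0 < κ ∧ ∃ U ∈ 𝓝 z₀, ∀ᶠ i in l, ∀ z ∈ U, P κ i z) :
    ∃ κ : ℝ, 0 < κ ∧ ∀ᶠ i in l, ∀ z ∈ K, P κ i z := by
  refine hK.induction_on (p := fun K => ∃ κ : ℝ, 0 < κ ∧ ∀ᶠ i in l, ∀ z ∈ K, P κ i z)
    ⟨1, one_pos, Eventually.of_forall fun i z hz => hz.elim⟩ ?_ ?_ ?_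
  · rintro s t hst ⟨κ, hκ, h1⟩
    exact ⟨κ, hκ, h1.mono fun i hi z hz => hi z (hst hz)⟩
  · rintro s t ⟨κ, hκ, h1⟩ ⟨κ', hκ', h2⟩
    refine ⟨min κ κ', lt_min hκ hκ', ?_⟩
    filter_upwards [h1, h2] with i h3 h4 z hz
    rcases hz with hz | hz
    · exact hP _ _ _ _ (min_le_left _ _) (h3 z hz)
    · exact hP _ _ _ _ (min_le_right _ _) (h4 z hz)
  · intro z hz
    obtain ⟨κ, hκ, U, hU, h1⟩ := h z hz
    exact ⟨U, mem_nhdsWithin_of_mem_nhds hU, κ, hκ, h1⟩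

theorem good_pert {F F' : M → E4} (hF : Sm F) (hF' : Sm F') {φ : Chart M} (hφ : IsCh φ) {z : E2}
    (hz : z ∈ φ.target) {κ : ℝ} (hκ : 0 < κ) {v : E2} (hv : ‖v‖ = 1)
    (hc : ∀ j ≤ 2, ‖iteratedFDeriv ℝ j ((F' - F) ∘ φ.symm) z‖ ≤ κ / 2)
    (h : IndQ κ (fderiv ℝ (F ∘ φ.symm) z) (D2 (F ∘ φ.symm) z v)) :
    Ind (fderiv ℝ (F' ∘ φ.symm) z) (D2 (F' ∘ φ.symm) z v) := by
  have h1 := hF.contDiffAt hφ hz
  have h2 := hF'.contDiffAt hφ hz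
  have h3 : ContDiffAt ℝ ∞ ((F' - F) ∘ φ.symm) z := h2.sub h1
  have e : F' ∘ φ.symm = F ∘ φ.symm + (F' - F) ∘ φ.symm := by
    funext w
    simp
  refine (h.perturb (ε := κ / 2) ?_ ?_).ind (by linarith)
  · rw [e, fderiv_add (h1.differentiableAt (by simp)) (h3.differentiableAt (by simp)),
      add_sub_cancel_left, ← norm_iteratedFDeriv_one]
    exact hc 1 (by norm_num)
  · rw [e, D2_add h1 h3, add_sub_cancel_left]
    refine (norm_D2_le _ _ _).trans ?_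
    rw [hv, one_pow, mul_one]
    exact hc 2 le_rfl

theorem good1_of_local {F : M → E4} (hF : Sm F)
    (h : ∀ p, ∃ φ : Chart M, IsCh φ ∧ p ∈ φ.source ∧ ∃ v : E2,
      Ind (fderiv ℝ (F ∘ φ.symm) (φ p)) (D2 (F ∘ φ.symm) (φ p) v)) : Good1 F := by
  intro ψ hψ z hz
  obtain ⟨φ, hφ, hp, w, hw⟩ := h (ψ.symm z)
  obtain ⟨v, rfl⟩ := (good_bij hφ hψ hz hp).2 w
  exact ⟨v, good_ind hF hφ hψ hz hp hw⟩

theorem good2_of_local {F : M → E4} {h : M → ℝ} {S : Set M} (hF : Sm F) (hh : Sm h)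
    (H : ∀ p ∈ S, ∃ φ : Chart M, IsCh φ ∧ p ∈ φ.source ∧ ∀ v : E2, v ≠ 0 →
      fderiv ℝ (h ∘ φ.symm) (φ p) v = 0 →
      Ind (fderiv ℝ (F ∘ φ.symm) (φ p)) (D2 (F ∘ φ.symm) (φ p) v)) : Good2 F h S := by
  intro ψ hψ z hz hs v hv h0
  obtain ⟨φ, hφ, hp, hw⟩ := H (ψ.symm z) hs
  refine good_ind hF hφ hψ hz hp (hw _ (fun h1 => hv ?_) ?_)
  · exact (good_bij hφ hψ hz hp).1 (h1.trans (map_zero _).symm)
  · rw [← good_chain hh hφ hψ hz hp, h0]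

theorem ug1_of_local {F : ι → M → E4} (hF : ∀ᶠ i in l, Sm (F i))
    (h : ∀ p, ∃ φ : Chart M, IsCh φ ∧ p ∈ φ.source ∧ ∃ κ : ℝ, 0 < κ ∧ ∃ U ∈ 𝓝 (φ p),
      ∀ᶠ i in l, ∀ z ∈ U, ∃ v : E2, ‖v‖ = 1 ∧
        IndQ κ (fderiv ℝ (F i ∘ φ.symm) z) (D2 (F i ∘ φ.symm) z v)) : UG1 l F := by
  intro ψ hψ K hK hKc
  refine good_compact hKc (P := fun κ i z => ∃ v : E2, ‖v‖ = 1 ∧
    IndQ κ (fderiv ℝ (F i ∘ ψ.symm) z) (D2 (F i ∘ ψ.symm) z v))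
    (fun κ κ' i z hκ ⟨v, hv, h1⟩ => ⟨v, hv, h1.mono hκ⟩) fun z₀ hz₀ => ?_
  obtain ⟨φ, hφ, hp, κ, hκ, U, hU, h1⟩ := h (ψ.symm z₀)
  obtain ⟨a, ha, h2⟩ := good_loc hφ hψ (hK hz₀) hp
  have h3 : ∀ᶠ z in 𝓝 z₀, φ (ψ.symm z) ∈ U :=
    (hφ.contDiffAt_trans hψ (hK hz₀) hp).continuousAt.eventually hU
  refine ⟨a * κ, mul_pos ha hκ, _, h2.and h3, ?_⟩
  filter_upwards [hF, h1] with i hi h4 z hz
  obtain ⟨w, hw, h5⟩ := h4 _ hz.2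
  obtain ⟨v, hv⟩ := (good_bij hφ hψ hz.1.1.1 hz.1.1.2).2 w
  have hv0 : v ≠ 0 := fun h6 => by
    rw [h6, map_zero] at hv
    rw [← hv, norm_zero] at hw
    exact zero_ne_one hw
  have hn := norm_ne_zero_iff.2 hv0
  refine ⟨‖v‖⁻¹ • v, norm_smul_inv_norm hv0, hz.1.2 _ hi _ κ hκ.le (norm_smul_inv_norm hv0) ?_⟩
  rwa [map_smul, hv, norm_smul, hw, mul_one, norm_inv, norm_norm, inv_inv, smul_smul,
    mul_inv_cancel₀ hn, one_smul]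

theorem ug2_of_local {F : ι → M → E4} {h : M → ℝ} {S : Set M} (hS : IsClosed S)
    (hF : ∀ᶠ i in l, Sm (F i)) (hh : Sm h)
    (H : ∀ p ∈ S, ∃ φ : Chart M, IsCh φ ∧ p ∈ φ.source ∧ ∃ κ : ℝ, 0 < κ ∧ ∃ U ∈ 𝓝 (φ p),
      ∀ᶠ i in l, ∀ z ∈ U, φ.symm z ∈ S → ∀ v : E2, ‖v‖ = 1 →
        fderiv ℝ (h ∘ φ.symm) z v = 0 →
        IndQ κ (fderiv ℝ (F i ∘ φ.symm) z) (D2 (F i ∘ φ.symm) z v)) : UG2 l F h S := by
  intro ψ hψ K hK hKc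
  refine good_compact hKc (P := fun κ i z => ψ.symm z ∈ S → ∀ v : E2, ‖v‖ = 1 →
    fderiv ℝ (h ∘ ψ.symm) z v = 0 → IndQ κ (fderiv ℝ (F i ∘ ψ.symm) z) (D2 (F i ∘ ψ.symm) z v))
    (fun κ κ' i z hκ h1 hs v hv h0 => (h1 hs v hv h0).mono hκ) fun z₀ hz₀ => ?_
  by_cases hs : ψ.symm z₀ ∈ S
  · obtain ⟨φ, hφ, hp, κ, hκ, U, hU, h1⟩ := H (ψ.symm z₀) hs
    obtain ⟨a, ha, h2⟩ := good_loc hφ hψ (hK hz₀) hp
    have h3 : ∀ᶠ z in 𝓝 z₀, φ (ψ.symm z) ∈ U :=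
      (hφ.contDiffAt_trans hψ (hK hz₀) hp).continuousAt.eventually hU
    refine ⟨a * κ, mul_pos ha hκ, _, h2.and h3, ?_⟩
    filter_upwards [hF, h1] with i hi h4 z hz hzs v hv h0
    have hv0 : fderiv ℝ (φ ∘ ψ.symm) z v ≠ 0 := fun h6 => by
      have h7 := (good_bij hφ hψ hz.1.1.1 hz.1.1.2).1 (h6.trans (map_zero _).symm)
      rw [h7, norm_zero] at hv
      exact zero_ne_one hv
    refine hz.1.2 _ hi _ κ hκ.le hv (h4 _ hz.2 ?_ _ (norm_smul_inv_norm hv0) ?_)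
    · rwa [φ.left_inv hz.1.1.2]
    · rw [map_smul, ← good_chain hh hφ hψ hz.1.1.1 hz.1.1.2, h0, smul_zero]
  · have h1 : ∀ᶠ z in 𝓝 z₀, ψ.symm z ∈ Sᶜ :=
      (ψ.continuousAt_symm (hK hz₀)).eventually (hS.isOpen_compl.mem_nhds hs)
    exact ⟨1, one_pos, _, h1, Eventually.of_forall fun i z hz hzs => absurd hzs hz⟩

theorem Good1.ug1 {F : M → E4} (hF : Sm F) (h : Good1 F) : UG1 l (fun _ => F) := by
  intro φ hφ K hK hKc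
  refine good_compact hKc (P := fun κ _ z => ∃ v : E2, ‖v‖ = 1 ∧
    IndQ κ (fderiv ℝ (F ∘ φ.symm) z) (D2 (F ∘ φ.symm) z v))
    (fun κ κ' i z hκ ⟨v, hv, h1⟩ => ⟨v, hv, h1.mono hκ⟩) fun z₀ hz₀ => ?_
  obtain ⟨v, hv⟩ := h φ hφ z₀ (hK hz₀)
  have hv0 : v ≠ 0 := fun h1 => one_ne_zero (hv 0 1 (by simp [h1, D2])).2
  have h1 := good_ind_smul hv (pow_ne_zero 2 (inv_ne_zero (norm_ne_zero_iff.2 hv0)))
  rw [← D2_smul] at h1
  obtain ⟨κ, hκ, h2⟩ := h1.exists_indQ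
  have hu := good_c1 (hF.contDiffAt hφ (hK hz₀))
  have h3 := Metric.tendsto_nhds.1 hu.continuousAt _ (half_pos hκ)
  have h4 : ContinuousAt (fun z => D2 (F ∘ φ.symm) z (‖v‖⁻¹ • v)) z₀ :=
    ((good_c1 hu).continuousAt.clm_apply continuousAt_const).clm_apply continuousAt_const
  have h5 := Metric.tendsto_nhds.1 h4 _ (half_pos hκ)
  refine ⟨κ - κ / 2, by linarith, _, h3.and h5, Eventually.of_forall fun _ z hz =>
    ⟨‖v‖⁻¹ • v, norm_smul_inv_norm hv0, h2.perturb ?_ ?_⟩⟩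
  · rw [← dist_eq_norm]
    exact hz.1.le
  · rw [← dist_eq_norm]
    exact hz.2.le

theorem Good2.ug2 {F : M → E4} {h : M → ℝ} {S : Set M} (hS : IsClosed S) (hF : Sm F) (hh : Sm h)
    (H : Good2 F h S) : UG2 l (fun _ => F) h S := by
  intro φ hφ K hK hKc
  have hc := hKc.prod (isCompact_sphere (0 : E2) 1)
  have h1 : ContinuousOn (fun q : E2 × E2 => (φ.symm q.1, fderiv ℝ (h ∘ φ.symm) q.1 q.2))
      (K ×ˢ sphere (0 : E2) 1) := fun q hq =>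
    (((φ.continuousAt_symm (hK hq.1)).comp continuousAt_fst).prodMk
      ((((good_c1 (hh.contDiffAt hφ (hK hq.1))).continuousAt).comp continuousAt_fst).clm_apply
        continuousAt_snd)).continuousWithinAt
  have h2 := hc.of_isClosed_subset
    (h1.preimage_isClosed_of_isClosed hc.isClosed (hS.prod (isClosed_singleton (x := (0 : ℝ)))))
    inter_subset_left
  obtain ⟨κ, hκ, h3⟩ := exists_indQ_compact h2 (A := fun q => fderiv ℝ (F ∘ φ.symm) q.1)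
    (c := fun q => D2 (F ∘ φ.symm) q.1 q.2)
    (fun q hq => ((good_c1 (hF.contDiffAt hφ (hK hq.1.1))).continuousAt.comp
      continuousAt_fst).continuousWithinAt)
    (fun q hq => ((((good_c1 (good_c1 (hF.contDiffAt hφ (hK hq.1.1)))).continuousAt.comp
      continuousAt_fst).clm_apply continuousAt_snd).clm_apply continuousAt_snd).continuousWithinAt)
    (fun q hq => H φ hφ q.1 (hK hq.1.1) hq.2.1 q.2 (fun h4 => by
      have h5 := mem_sphere_zero_iff_norm.1 hq.1.2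
      rw [h4, norm_zero] at h5
      exact zero_ne_one h5) hq.2.2)
  exact ⟨κ, hκ, Eventually.of_forall fun _ z hz hs v hv h0 =>
    h3 (z, v) ⟨⟨hz, mem_sphere_zero_iff_norm.2 hv⟩, hs, h0⟩⟩

theorem UG1.good1 [CompactSpace M] {F F' : ι → M → E4} (hF : ∀ᶠ i in l, Sm (F i))
    (hF' : ∀ᶠ i in l, Sm (F' i)) (h : UG1 l F) (hc : Close2 l F F') :
    ∀ᶠ i in l, Good1 (F' i) := by
  obtain ⟨s, hs, hcov⟩ := exists_fin_cover (M := M)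
  have h1 : ∀ c ∈ s, ∀ᶠ i in l, ∀ z ∈ c.2, ∃ v : E2,
      Ind (fderiv ℝ (F' i ∘ c.1.symm) z) (D2 (F' i ∘ c.1.symm) z v) := by
    intro c hcs
    obtain ⟨hφ, hK, hKc⟩ := hs c hcs
    obtain ⟨κ, hκ, h2⟩ := h c.1 hφ c.2 hK hKc
    filter_upwards [hF, hF', h2, hc c.1 hφ c.2 hK hKc _ (half_pos hκ)] with i h3 h4 h5 h6 z hz
    obtain ⟨v, hv, h7⟩ := h5 z hz
    exact ⟨v, good_pert h3 h4 hφ (hK hz) hκ hv (h6 z hz) h7⟩
  filter_upwards [hF', (eventually_all_finset s).2 h1] with i h2 h3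
  refine good1_of_local h2 fun p => ?_
  obtain ⟨c, hcs, hp, hp'⟩ := hcov p
  exact ⟨c.1, (hs c hcs).1, hp, h3 c hcs _ (interior_subset hp')⟩

theorem UG2.good2 [CompactSpace M] {F F' : ι → M → E4} {h : M → ℝ} {S : Set M}
    (hF : ∀ᶠ i in l, Sm (F i)) (hF' : ∀ᶠ i in l, Sm (F' i)) (hh : Sm h) (H : UG2 l F h S)
    (hc : Close2 l F F') : ∀ᶠ i in l, Good2 (F' i) h S := by
  obtain ⟨s, hs, hcov⟩ := exists_fin_cover (M := M)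
  have h1 : ∀ c ∈ s, ∀ᶠ i in l, ∀ z ∈ c.2, c.1.symm z ∈ S → ∀ v : E2, v ≠ 0 →
      fderiv ℝ (h ∘ c.1.symm) z v = 0 →
      Ind (fderiv ℝ (F' i ∘ c.1.symm) z) (D2 (F' i ∘ c.1.symm) z v) := by
    intro c hcs
    obtain ⟨hφ, hK, hKc⟩ := hs c hcs
    obtain ⟨κ, hκ, h2⟩ := H c.1 hφ c.2 hK hKc
    filter_upwards [hF, hF', h2, hc c.1 hφ c.2 hK hKc _ (half_pos hκ)] with i h3 h4 h5 h6 z hz
      hzs v hv h0
    have hn := norm_ne_zero_iff.2 hv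
    have h8 : ‖‖v‖⁻¹ • v‖ = 1 := norm_smul_inv_norm hv
    have h7 := good_ind_smul (good_pert h3 h4 hφ (hK hz) hκ h8 (h6 z hz)
      (h5 z hz hzs _ h8 (by rw [map_smul, h0, smul_zero]))) (pow_ne_zero 2 hn)
    rwa [← D2_smul, smul_smul, mul_inv_cancel₀ hn, one_smul] at h7
  filter_upwards [hF', (eventually_all_finset s).2 h1] with i h2 h3
  refine good2_of_local h2 hh fun p hpS => ?_
  obtain ⟨c, hcs, hp, hp'⟩ := hcov p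
  exact ⟨c.1, (hs c hcs).1, hp, h3 c hcs _ (interior_subset hp') (by rwa [c.1.left_inv hp])⟩

end Vale.Agent.P205
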