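import Vale.Agent.P205.Api.Ten

/-!
Metrics.
isMetric_of_riem: symmetry and positivity are fields of g. Smoothness: by smT_of_local or directly;
contDiffOn_clm_apply twice reduces to z ↦ g.inner (φ.symm z) (dS φ z v) (dS φ z w); use
ContMDiffOn.clm_bundle_apply₂ (see the proof of ContMDiffWithinAt.inner_bundle in
Mathlib/Geometry/Manifold/VectorBundle/Riemannian.lean) with base map φ.symm and the sections
z ↦ tangentMap I2 I2 φ.symm ⟨z, v⟩ (ContMDiffOn.contMDiffOn_tangentMapWithin, open target).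
The two comparison lemmas: continuity of (z, v) ↦ trep φ g z v v on the compact K × sphere,
then scaling; the global one uses exists_fin_cover and apply_eq_trep.
-/

open scoped Manifold ContDiff Topology RealInnerProductSpace
open Set Filter Metric Function

noncomputable section

namespace Vale.Agent.P205

variable {M : Type*} [TopologicalSpace M] [ChartedSpace E2 M] [IsManifold I2 ∞ M]
variable {V : Type} [NormedAddCommGroup V]

theorem Met_sec {φ : Chart M} (hφ : IsCh φ) (v : E2) : ContMDiffOn I2 I2.tangent ∞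
    (fun z => (Bundle.TotalSpace.mk' E2 (φ.symm z) (dS φ z v) : TangentBundle I2 M)) φ.target := by
  have h1 := hφ.contMDiffOn_symm.contMDiffOn_tangentMapWithin (m := ∞) le_rfl
    φ.open_target.uniqueMDiffOn
  have h2 : ContMDiff I2 I2.tangent ∞
      (fun z : E2 => (Bundle.TotalSpace.mk' E2 z v : TangentBundle I2 E2)) :=
    (contMDiff_vectorSpace_iff_contDiff (V := fun _ => v)).2 contDiff_const
  refine (h1.comp h2.contMDiffOn fun z hz => hz).congr fun z hz => ?_
  simp only [tangentMapWithin, Function.comp, mfderivWithin_of_isOpen φ.open_target hz]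
  rfl

theorem Met_pos {g : M → Bil} (hg : IsMetric g) {φ : Chart M} (hφ : IsCh φ) {z : E2}
    (hz : z ∈ φ.target) {v : E2} (hv : v ≠ 0) : 0 < trep φ g z v v := by
  refine hg.2.2 _ _ fun h => hv ?_
  have h1 := dM_dS hφ (φ.map_target hz) v
  rw [φ.right_inv hz, show dS φ z v = 0 from h, map_zero] at h1
  exact h1.symm

theorem Met_sqrt {B : Bil} (hs : ∀ v w, B v w = B w v) (hp : ∀ v, v ≠ 0 → 0 < B v v) :
    ∃ L : E2 ≃L[ℝ] E2, ∀ v w, ⟪L v, L w⟫ = B v w := by
  have hv : ∀ v : E2, v = v 0 • ex + v 1 • ey := fun v => by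
    ext i
    fin_cases i <;> simp [ex, ey]
  have e : ∀ v w : E2, B v w = B ex ex * v 0 * w 0 + B ex ey * (v 0 * w 1 + v 1 * w 0) +
      B ey ey * v 1 * w 1 := fun v w => by
    conv_lhs => rw [hv v, hv w]
    simp only [map_add, map_smul, add_apply, smul_apply,
      smul_eq_mul, hs ey ex]
    ring
  set a := B ex ex
  set b := B ex ey
  set c := B ey ey
  have ha : 0 < a := hp ex fun h => by simpa [ex] using congrArg (· 0) h
  have hd : 0 < c - b ^ 2 / a := by
    have h1 := hp (!₂[-b / a, 1]) fun h => by simpa using congrArg (· 1) h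
    rw [e] at h1
    refine h1.trans_eq ?_
    simp
    field_simp
    ring
  obtain ⟨s, hs0, has⟩ : ∃ s, 0 < s ∧ a = s ^ 2 :=
    ⟨√a, Real.sqrt_pos.2 ha, (Real.sq_sqrt ha.le).symm⟩
  rw [has] at hd e
  obtain ⟨t, ht⟩ : ∃ t, c - b ^ 2 / s ^ 2 = t ^ 2 := ⟨√_, (Real.sq_sqrt hd.le).symm⟩
  let L : E2 →ₗ[ℝ] E2 :=
    { toFun := fun v => !₂[s * v 0 + b / s * v 1, t * v 1]
      map_add' := fun v w => by
        ext i
        fin_cases i <;> simp <;> ring
      map_smul' := fun r v => by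
        ext i
        fin_cases i <;> simp <;> ring }
  have hL : ∀ v w, ⟪L v, L w⟫ = B v w := fun v w => by
    have h1 : c = t ^ 2 + b ^ 2 / s ^ 2 := by linarith
    rw [e, h1]
    simp [L, PiLp.inner_apply]
    field_simp
    ring
  have hi : Injective L := (injective_iff_map_eq_zero L).2 fun v h => by
    by_contra h0
    have := hp v h0
    rw [← hL, h, inner_zero_left] at this
    exact lt_irrefl _ this
  exact ⟨(LinearEquiv.ofInjectiveEndo L hi).toContinuousLinearEquiv, hL⟩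

theorem isMetric_of_riem
    (g : Bundle.ContMDiffRiemannianMetric I2 ∞ E2 (fun p : M => TangentSpace I2 p)) :
    IsMetric (M := M) (fun p => g.inner p) := by
  refine ⟨fun φ hφ => ?_, fun p v w => g.symm p v w, fun p v hv => g.pos p v hv⟩
  refine contDiffOn_clm_apply.2 fun v => contDiffOn_clm_apply.2 fun w => ?_
  have h : ContMDiffOn I2 (I2.prod 𝓘(ℝ)) ∞ (fun z => Bundle.TotalSpace.mk' ℝ
      (E := Bundle.Trivial M ℝ) (φ.symm z) (g.inner (φ.symm z) (dS φ z v) (dS φ z w))) φ.target :=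
    ContMDiffOn.clm_bundle_apply₂ (F₁ := E2) (F₂ := E2)
      (g.contMDiff.comp_contMDiffOn hφ.contMDiffOn_symm) (Met_sec hφ v) (Met_sec hφ w)
  refine contMDiffOn_iff_contDiffOn.1 fun z hz => ?_
  have h1 := h z hz
  simp only [Bundle.contMDiffWithinAt_totalSpace] at h1
  exact h1.2

theorem IsMetric.lower {g : M → Bil} (hg : IsMetric g) {φ : Chart M} (hφ : IsCh φ) {K : Set E2}
    (hK : IsCompact K) (hKt : K ⊆ φ.target) :
    ∃ c : ℝ, 0 < c ∧ ∀ z ∈ K, ∀ v, c * ‖v‖ ^ 2 ≤ trep φ g z v v := by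
  have hc : ContinuousOn (fun x : E2 × E2 => trep φ g x.1 x.2 x.2) (K ×ˢ sphere 0 1) :=
    ((((hg.1 φ hφ).continuousOn.comp continuous_fst.continuousOn fun x hx => hKt hx.1).clm_apply
      continuous_snd.continuousOn).clm_apply continuous_snd.continuousOn)
  obtain ⟨c, hc0, h⟩ := (hK.prod (isCompact_sphere 0 1)).exists_forall_le' hc (a := 0)
    fun x hx => Met_pos hg hφ (hKt hx.1) (ne_zero_of_mem_unit_sphere ⟨x.2, hx.2⟩)
  refine ⟨c, hc0, fun z hz v => ?_⟩
  rcases eq_or_ne v 0 with rfl | hv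
  · simp
  have h0 : 0 < ‖v‖ := norm_pos_iff.2 hv
  have h1 := h (z, ‖v‖⁻¹ • v) ⟨hz, by simp [norm_smul, h0.ne']⟩
  simp only [map_smul, smul_apply, smul_eq_mul] at h1
  refine (mul_le_mul_of_nonneg_right h1 (sq_nonneg _)).trans_eq ?_
  field_simp

theorem SmT.upper {T : M → Bil} (hT : SmT T) {φ : Chart M} (hφ : IsCh φ) {K : Set E2}
    (hK : IsCompact K) (hKt : K ⊆ φ.target) :
    ∃ C : ℝ, 0 < C ∧ ∀ z ∈ K, ∀ v, |trep φ T z v v| ≤ C * ‖v‖ ^ 2 := by
  obtain ⟨C, hC⟩ := hK.exists_bound_of_continuousOn (f := trep φ T)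
    ((hT φ hφ).continuousOn.mono hKt)
  refine ⟨max C 1, lt_max_of_lt_right one_pos, fun z hz v => ?_⟩
  refine ((trep φ T z).le_opNorm₂ v v).trans ?_
  rw [mul_assoc, ← sq]
  exact mul_le_mul_of_nonneg_right ((hC z hz).trans (le_max_left _ _)) (sq_nonneg _)

theorem SmT.le_metric [CompactSpace M] {T g : M → Bil} (hT : SmT T) (hg : IsMetric g) :
    ∃ C : ℝ, 0 < C ∧ ∀ p v, |T p v v| ≤ C * g p v v := by
  obtain ⟨s, hs, hc⟩ := exists_fin_cover (M := M)
  have h : ∀ c ∈ s, ∃ C : ℝ, 0 < C ∧ ∀ z ∈ c.2, ∀ v, |trep c.1 T z v v| ≤ C * trep c.1 g z v v := by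
    intro c hc
    obtain ⟨a, ha, h1⟩ := hg.lower (hs c hc).1 (hs c hc).2.2 (hs c hc).2.1
    obtain ⟨b, hb, h2⟩ := hT.upper (hs c hc).1 (hs c hc).2.2 (hs c hc).2.1
    refine ⟨b / a, div_pos hb ha, fun z hz v => (h2 z hz v).trans ?_⟩
    refine le_trans (le_of_eq ?_) (mul_le_mul_of_nonneg_left (h1 z hz v) (div_pos hb ha).le)
    field_simp
  choose! C hC0 hC using h
  have h0 : 0 ≤ ∑ c ∈ s, C c := Finset.sum_nonneg fun c hc => (hC0 c hc).le
  refine ⟨∑ c ∈ s, C c + 1, by linarith, fun p v => ?_⟩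
  obtain ⟨c, hcs, hp, hp'⟩ := hc p
  have h1 := hC c hcs _ (interior_subset hp') (dM c.1 p v)
  rw [← apply_eq_trep (hs c hcs).1 T hp, ← apply_eq_trep (hs c hcs).1 g hp] at h1
  refine h1.trans (mul_le_mul_of_nonneg_right ?_ ?_)
  · linarith [Finset.single_le_sum (fun c hc => (hC0 c hc).le) hcs]
  · rcases eq_or_ne v 0 with rfl | hv
    · simp
    · exact (hg.2.2 p v hv).le

/-- An immersion pulls back a metric. -/
theorem Good1.isMetric {F : M → E4} (hF : Sm F) (h : Good1 F) : IsMetric (pull F) := by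
  refine ⟨hF.smT_pull, symT_pull F, fun p v hv => ?_⟩
  rw [pull_apply, real_inner_self_pos]
  intro h0
  have hφ := isCh_chartAt p
  have hp := mem_chart_source E2 p
  obtain ⟨u, hu⟩ := h _ hφ _ ((chartAt E2 p).map_source hp)
  rw [hF.dM_eq hφ hp] at h0
  have h1 := dS_dM hφ hp v
  rw [(hu (dM (chartAt E2 p) p v) 0 (by rw [h0, zero_smul, add_zero])).1, map_zero] at h1
  exact hv h1.symm

/-- A chart centred at p in which g is Euclidean at the origin. -/
theorem IsMetric.normal_ch {g : M → Bil} (hg : IsMetric g) (p : M) :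
    ∃ φ : Chart M, IsCh φ ∧ p ∈ φ.source ∧ φ p = 0 ∧ ∀ v w, trep φ g 0 v w = ⟪v, w⟫ := by
  have hφ := isCh_chartAt p
  have hp := mem_chart_source E2 p
  set φ := chartAt E2 p
  obtain ⟨L, hL⟩ := Met_sqrt (B := trep φ g (φ p)) (fun v w => hg.2.1 _ _ _)
    fun v hv => Met_pos hg hφ (φ.map_source hp) hv
  obtain ⟨ψ, hψ, h1, h2, h3, h4⟩ := affine_ch hφ L (-L (φ p))
  have h5 : ψ p = 0 := by rw [h2, add_neg_cancel]
  have hp' : p ∈ ψ.source := h1 ▸ hp
  have h6 : (0 : E2) ∈ ψ.target := h5 ▸ ψ.map_source hp'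
  have h7 : ψ.symm 0 = p := by rw [← h5, ψ.left_inv hp']
  have h8 : (φ ∘ ψ.symm) =ᶠ[𝓝 0] fun z => L.symm (z - -L (φ p)) := by
    filter_upwards [ψ.open_target.mem_nhds h6] with z hz
    rw [h4] at hz
    rw [Function.comp, h3, φ.right_inv hz]
  have h9 : fderiv ℝ (φ ∘ ψ.symm) 0 = L.symm := by
    rw [h8.fderiv_eq]
    exact (L.symm.hasFDerivAt.comp 0 ((hasFDerivAt_id (0 : E2)).sub_const _)).fderiv
  refine ⟨ψ, hψ, hp', h5, fun v w => ?_⟩
  rw [trep_trans hφ hψ g h6 (h7 ▸ hp), h9, Function.comp, h7,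
    ContinuousLinearMap.bilinearComp_apply, ← hL]
  simp

end Vale.Agent.P205
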