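import Vale.Agent.P205.Api.Ch

/-!
Tensor fields, pull, push, pushT.
Hints: unfold the defs, ContinuousLinearMap.bilinearComp_apply, the lemmas of Api/Ch.
Smoothness of z ↦ (B z).bilinearComp (A z) (A z): contDiff_clm_apply_iff / contDiffOn_clm_apply
(finite dimension) reduce to scalar functions B z (A z v) (A z w), then ContDiffAt.clm_apply.
φ.symm '' K is compact hence closed (T2), so push φ U vanishes near points outside it.
-/

open scoped Manifold ContDiff Topology RealInnerProductSpace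
open Set Filter Metric Function

noncomputable section

namespace Vale.Agent.P205

variable {M : Type*} [TopologicalSpace M] [ChartedSpace E2 M] [IsManifold I2 ∞ M]
variable {V : Type} [NormedAddCommGroup V]

theorem ten_cd_flip {E F G : Type*} [NormedAddCommGroup E] [NormedSpace ℝ E]
    [NormedAddCommGroup F] [NormedSpace ℝ F] [NormedAddCommGroup G] [NormedSpace ℝ G] :
    ContDiff ℝ ∞ (fun f : E →L[ℝ] F →L[ℝ] G => f.flip) := by
  apply IsBoundedLinearMap.contDiff
  refine ⟨⟨fun f g => ?_, fun c f => ?_⟩, 1, one_pos, fun f => ?_⟩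
  · ext; rfl
  · ext; rfl
  · rw [ContinuousLinearMap.opNorm_flip, one_mul]

theorem ten_cd_smul {s : Set E2} {f : E2 → ℝ} {T : E2 → Bil} (hf : ContDiffOn ℝ ∞ f s)
    (hT : ContDiffOn ℝ ∞ T s) : ContDiffOn ℝ ∞ (fun z => f z • T z) s := by
  rw [contDiffOn_clm_apply] at hT ⊢
  intro v
  have h := hT v
  rw [contDiffOn_clm_apply] at h ⊢
  intro w
  exact hf.mul (h w)

theorem contDiffAt_bilinearComp {B : E2 → Bil} {A : E2 → E2 →L[ℝ] E2} {z : E2}
    (hB : ContDiffAt ℝ ∞ B z) (hA : ContDiffAt ℝ ∞ A z) :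
    ContDiffAt ℝ ∞ (fun x => (B x).bilinearComp (A x) (A x)) z := by
  have fl : ∀ C : E2 → Bil, ContDiffAt ℝ ∞ C z → ContDiffAt ℝ ∞ (fun x => (C x).flip) z :=
    fun C hC => (ten_cd_flip (E := E2) (F := E2) (G := ℝ)).contDiffAt.comp z hC
  have h1 : ContDiffAt ℝ ∞ (fun x => (B x).comp (A x)) z := hB.clm_comp hA
  have h2 := fl _ h1
  have h3 : ContDiffAt ℝ ∞ (fun x => ((B x).comp (A x)).flip.comp (A x)) z := h2.clm_comp hA
  exact fl _ h3

theorem trep_pull [InnerProductSpace ℝ V] {F : M → V} (hF : Sm F) {φ : Chart M} (hφ : IsCh φ)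
    {z : E2} (hz : z ∈ φ.target) (v w : E2) :
    trep φ (pull F) z v w = ⟪fderiv ℝ (F ∘ φ.symm) z v, fderiv ℝ (F ∘ φ.symm) z w⟫ := by
  rw [hF.fderiv_comp_symm hφ hz]
  rfl

theorem apply_eq_trep {φ : Chart M} (hφ : IsCh φ) (T : M → Bil) {p : M} (hp : p ∈ φ.source)
    (v w : E2) : T p v w = trep φ T (φ p) (dM φ p v) (dM φ p w) := by
  unfold trep
  rw [ContinuousLinearMap.bilinearComp_apply, dS_dM hφ hp, dS_dM hφ hp, φ.left_inv hp]

theorem trep_trans {φ ψ : Chart M} (hφ : IsCh φ) (hψ : IsCh ψ) (T : M → Bil) {z : E2}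
    (hz : z ∈ ψ.target) (hz' : ψ.symm z ∈ φ.source) :
    trep ψ T z = (trep φ T ((φ ∘ ψ.symm) z)).bilinearComp (fderiv ℝ (φ ∘ ψ.symm) z)
      (fderiv ℝ (φ ∘ ψ.symm) z) := by
  ext v w
  rw [fderiv_trans hφ hψ hz hz']
  have h := apply_eq_trep hφ T hz' (dS ψ z v) (dS ψ z w)
  exact h

theorem smT_of_local {T : M → Bil}
    (h : ∀ p, ∃ φ : Chart M, IsCh φ ∧ p ∈ φ.source ∧ ContDiffAt ℝ ∞ (trep φ T) (φ p)) :
    SmT T := by
  intro ψ hψ z hz
  obtain ⟨φ, hφ, hp, hc⟩ := h (ψ.symm z)
  have hτ := IsCh.contDiffAt_trans hφ hψ hz hp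
  have hd : ContDiffAt ℝ ∞ (fderiv ℝ (φ ∘ ψ.symm)) z := hτ.fderiv_right (m := ∞) (by simp)
  have hB : ContDiffAt ℝ ∞ (fun x => trep φ T ((φ ∘ ψ.symm) x)) z :=
    ContDiffAt.comp (g := trep φ T) (f := φ ∘ ψ.symm) z hc hτ
  have h1 := contDiffAt_bilinearComp hB hd
  have hev : ∀ᶠ x in 𝓝 z, x ∈ ψ.target ∧ ψ.symm x ∈ φ.source :=
    (ψ.open_target.eventually_mem hz).and
      ((ψ.continuousAt_symm hz).eventually (φ.open_source.eventually_mem hp))
  refine (h1.congr_of_eventuallyEq ?_).contDiffWithinAt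
  filter_upwards [hev] with x hx
  exact trep_trans hφ hψ T hx.1 hx.2

theorem Sm.smT_pull [InnerProductSpace ℝ V] {F : M → V} (hF : Sm F) : SmT (pull F) := by
  intro φ hφ
  rw [contDiffOn_clm_apply]
  intro v
  rw [contDiffOn_clm_apply]
  intro w z hz
  have hc := hF.contDiffAt hφ hz
  have hd : ContDiffAt ℝ ∞ (fderiv ℝ (F ∘ φ.symm)) z := hc.fderiv_right (m := ∞) (by simp)
  have h1 : ContDiffAt ℝ ∞ (fun x => ⟪fderiv ℝ (F ∘ φ.symm) x v, fderiv ℝ (F ∘ φ.symm) x w⟫) z :=
    ContDiffAt.inner ℝ (hd.clm_apply contDiffAt_const) (hd.clm_apply contDiffAt_const)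
  refine (h1.congr_of_eventuallyEq ?_).contDiffWithinAt
  filter_upwards [φ.open_target.eventually_mem hz] with x hx
  exact trep_pull hF hφ hx v w

omit [IsManifold I2 ∞ M] in
theorem symT_pull [InnerProductSpace ℝ V] (F : M → V) : SymT (pull F) := by
  intro p v w
  exact real_inner_comm _ _

omit [IsManifold I2 ∞ M] in
theorem pull_apply [InnerProductSpace ℝ V] (F : M → V) (p : M) (v w : E2) :
    pull F p v w = ⟪dM F p v, dM F p w⟫ := by
  rfl

theorem SmT.add {S T : M → Bil} (hS : SmT S) (hT : SmT T) : SmT (fun p => S p + T p) := by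
  intro φ hφ
  refine ((hS φ hφ).add (hT φ hφ)).congr ?_
  intro z _
  ext v w
  rfl

theorem SmT.sub {S T : M → Bil} (hS : SmT S) (hT : SmT T) : SmT (fun p => S p - T p) := by
  intro φ hφ
  refine ((hS φ hφ).sub (hT φ hφ)).congr ?_
  intro z _
  ext v w
  rfl

theorem SmT.smul {f : M → ℝ} {T : M → Bil} (hf : Sm f) (hT : SmT T) :
    SmT (fun p => f p • T p) := by
  intro φ hφ
  refine (ten_cd_smul (hf.contDiffOn hφ) (hT φ hφ)).congr ?_
  intro z _
  ext v w
  rfl

theorem smT_sum {α : Type*} (s : Finset α) {T : α → M → Bil} (h : ∀ a ∈ s, SmT (T a)) :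
    SmT (fun p => ∑ a ∈ s, T a p) := by
  intro φ hφ
  refine (ContDiffOn.sum (fun a ha => h a ha φ hφ)).congr ?_
  intro z _
  ext v w
  simp only [trep, ContinuousLinearMap.bilinearComp_apply, sum_apply]

omit [IsManifold I2 ∞ M] [ChartedSpace E2 M] in
theorem push_symm (φ : Chart M) (U : E2 → V) {z : E2} (hz : z ∈ φ.target) :
    push φ U (φ.symm z) = U z := by
  unfold push
  rw [if_pos (φ.map_target hz), φ.right_inv hz]

omit [IsManifold I2 ∞ M] [ChartedSpace E2 M] in
theorem push_eventually_zero [T2Space M] (φ : Chart M) {K : Set E2} (hK : IsCompact K)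
    (hKt : K ⊆ φ.target) {p : M} (hp : p ∉ φ.symm '' K) :
    ∀ᶠ q in 𝓝 p, ∀ U : E2 → V, support U ⊆ K → push φ U q = 0 := by
  have hc : IsClosed (φ.symm '' K) :=
    (hK.image_of_continuousOn (φ.continuousOn_symm.mono hKt)).isClosed
  filter_upwards [hc.isOpen_compl.mem_nhds hp] with q hq U hU
  unfold push
  split_ifs with hs
  · by_contra hne
    exact hq ⟨φ q, hU hne, φ.left_inv hs⟩
  · rfl

theorem sm_push [T2Space M] [NormedSpace ℝ V] {φ : Chart M} (hφ : IsCh φ) {U : E2 → V}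
    (hU : ContDiffOn ℝ ∞ U φ.target) {K : Set E2} (hK : IsCompact K) (hKt : K ⊆ φ.target)
    (hs : support U ⊆ K) : Sm (push φ U) := by
  apply sm_of_local
  intro p
  by_cases hp : p ∈ φ.source
  · refine ⟨φ, hφ, hp, ?_⟩
    have hz := φ.map_source hp
    refine (hU.contDiffAt (φ.open_target.mem_nhds hz)).congr_of_eventuallyEq ?_
    filter_upwards [φ.open_target.eventually_mem hz] with x hx
    exact push_symm φ U hx
  · have hp' : p ∉ φ.symm '' K := by
      rintro ⟨z, hz, rfl⟩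
      exact hp (φ.map_target (hKt hz))
    have hev := push_eventually_zero (V := V) φ hK hKt hp'
    have hs' := mem_chart_source E2 p
    refine ⟨chartAt E2 p, isCh_chartAt p, hs', ?_⟩
    have hcont : ContinuousAt (chartAt E2 p).symm (chartAt E2 p p) :=
      (chartAt E2 p).continuousAt_symm ((chartAt E2 p).map_source hs')
    have ht : Tendsto (chartAt E2 p).symm (𝓝 (chartAt E2 p p)) (𝓝 p) := by
      have := hcont.tendsto
      rwa [(chartAt E2 p).left_inv hs'] at this
    refine (contDiffAt_const (c := (0 : V))).congr_of_eventuallyEq ?_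
    filter_upwards [ht.eventually hev] with x hx
    exact hx U hs

theorem trep_pushT {φ : Chart M} (hφ : IsCh φ) (T : E2 → Bil) {z : E2} (hz : z ∈ φ.target) :
    trep φ (pushT φ T) z = T z := by
  have hp := φ.map_target hz
  ext v w
  unfold trep pushT
  rw [if_pos hp, ContinuousLinearMap.bilinearComp_apply, ContinuousLinearMap.bilinearComp_apply]
  have h1 := dM_dS hφ hp v
  have h2 := dM_dS hφ hp w
  rw [φ.right_inv hz] at h1 h2
  rw [h1, h2, φ.right_inv hz]

omit [IsManifold I2 ∞ M] in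
theorem pushT_eventually_zero [T2Space M] (φ : Chart M) {K : Set E2} (hK : IsCompact K)
    (hKt : K ⊆ φ.target) {p : M} (hp : p ∉ φ.symm '' K) :
    ∀ᶠ q in 𝓝 p, ∀ T : E2 → Bil, support T ⊆ K → pushT φ T q = 0 := by
  have hc : IsClosed (φ.symm '' K) :=
    (hK.image_of_continuousOn (φ.continuousOn_symm.mono hKt)).isClosed
  filter_upwards [hc.isOpen_compl.mem_nhds hp] with q hq T hT
  unfold pushT
  split_ifs with hs
  · have h0 : T (φ q) = 0 := by
      by_contra hne
      exact hq ⟨φ q, hT hne, φ.left_inv hs⟩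
    rw [h0]
    ext v w
    rfl
  · rfl

theorem smT_pushT [T2Space M] {φ : Chart M} (hφ : IsCh φ) {T : E2 → Bil}
    (hT : ContDiffOn ℝ ∞ T φ.target) {K : Set E2} (hK : IsCompact K) (hKt : K ⊆ φ.target)
    (hs : support T ⊆ K) : SmT (pushT φ T) := by
  apply smT_of_local
  intro p
  by_cases hp : p ∈ φ.source
  · refine ⟨φ, hφ, hp, ?_⟩
    have hz := φ.map_source hp
    refine (hT.contDiffAt (φ.open_target.mem_nhds hz)).congr_of_eventuallyEq ?_
    filter_upwards [φ.open_target.eventually_mem hz] with x hx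
    exact trep_pushT hφ T hx
  · have hp' : p ∉ φ.symm '' K := by
      rintro ⟨z, hz, rfl⟩
      exact hp (φ.map_target (hKt hz))
    have hev := pushT_eventually_zero φ hK hKt hp'
    have hs' := mem_chart_source E2 p
    refine ⟨chartAt E2 p, isCh_chartAt p, hs', ?_⟩
    have hcont : ContinuousAt (chartAt E2 p).symm (chartAt E2 p p) :=
      (chartAt E2 p).continuousAt_symm ((chartAt E2 p).map_source hs')
    have ht : Tendsto (chartAt E2 p).symm (𝓝 (chartAt E2 p p)) (𝓝 p) := by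
      have := hcont.tendsto
      rwa [(chartAt E2 p).left_inv hs'] at this
    refine (contDiffAt_const (c := (0 : Bil))).congr_of_eventuallyEq ?_
    filter_upwards [ht.eventually hev] with x hx
    unfold trep
    rw [hx T hs]
    ext v w
    rfl

omit [IsManifold I2 ∞ M] in
theorem symT_pushT (φ : Chart M) {T : E2 → Bil} (hT : ∀ z v w, T z v w = T z w v) :
    SymT (pushT φ T) := by
  intro p v w
  unfold pushT
  split_ifs with hs
  · exact hT _ _ _
  · rfl

omit [IsManifold I2 ∞ M] [ChartedSpace E2 M] [TopologicalSpace M] in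
theorem eq_of_diag {S T : M → Bil} (hS : SymT S) (hT : SymT T) (h : ∀ p v, S p v v = T p v v) :
    S = T := by
  funext p
  ext v w
  have h1 := h p (v + w)
  simp only [map_add, add_apply] at h1
  have h2 := h p v
  have h3 := h p w
  have h4 := hS p v w
  have h5 := hT p v w
  linarith

end Vale.Agent.P205
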